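import Vale.Agent.Lib.P043.Stub

open scoped BigOperators
open Classical

namespace P043

variable {d p : ℕ}

/-- element with label `(b,j)` -/
noncomputable def el {F : Finset (Fin d → ℤ)} (l : F ≃ Bool × ZMod p) (b : Bool) (j : ZMod p) : Fin d → ℤ :=
  ((l.symm (b, j) : F) : Fin d → ℤ)

lemma el_mem {F : Finset (Fin d → ℤ)} (l : F ≃ Bool × ZMod p) (b : Bool) (j : ZMod p) : el l b j ∈ F :=
  (l.symm (b, j)).2

lemma el_l {F : Finset (Fin d → ℤ)} (l : F ≃ Bool × ZMod p) (f : F) :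
    el l (l f).1 (l f).2 = f := by
  simp [el]

variable {F : Finset (Fin d → ℤ)} [Fact p.Prime]

/-- `f_{0,1} - f_{0,0}` -/
noncomputable def eV (l : F ≃ Bool × ZMod p) : Fin d → ℤ := el l false 1 - el l false 0
/-- `f_{1,0} - f_{0,0}` -/
noncomputable def aV (l : F ≃ Bool × ZMod p) : Fin d → ℤ := el l true 0 - el l false 0

/-- differences inside one class -/
noncomputable def Sl (l : F ≃ Bool × ZMod p) : AddSubgroup (Fin d → ℤ) :=
  AddSubgroup.closure {x | ∃ b j j', x = el l b j - el l b j'}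

noncomputable def R1B (l : F ≃ Bool × ZMod p) : AddSubgroup (Fin d → ℤ) :=
  Sl l ⊔ AddSubgroup.zmultiples (2 • aV l)

noncomputable def R2B (l : F ≃ Bool × ZMod p) : AddSubgroup (Fin d → ℤ) :=
  AddSubgroup.closure ({x | ∃ b j, x = el l b j - el l b 0 - j.val • eV l} ∪ {p • eV l})

noncomputable def R1A (l : F ≃ Bool × ZMod p) : AddSubgroup (Fin d → ℤ) :=
  AddSubgroup.closure ({x | ∃ j, x = el l true j - el l false j - aV l} ∪ {2 • aV l})

noncomputable def R2A (l : F ≃ Bool × ZMod p) : AddSubgroup (Fin d → ℤ) :=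
  AddSubgroup.closure ({x | ∃ b j, x = el l b j - el l false 0 - j.val • eV l} ∪ {p • eV l})

def CondB (l : F ≃ Bool × ZMod p) : Prop := aV l ∉ R1B l ∧ eV l ∉ R2B l
def CondA (l : F ≃ Bool × ZMod p) : Prop := aV l ∉ R1A l ∧ eV l ∉ R2A l

lemma order_of_prime {Γ : Type*} [AddCommGroup Γ] {η : Γ} (h0 : η ≠ 0) (hp : p • η = 0) :
    addOrderOf η = p := by
  exact addOrderOf_eq_prime hp h0

theorem periodic_of_condB (l : F ≃ Bool × ZMod p) (h : CondB l) :
    ∃ A : Set (Fin d → ℤ), IsTiling A F ∧ IsPeriodic A := by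
  obtain ⟨h1, h2⟩ := h
  have hp0 : p ≠ 0 := (Fact.out : p.Prime).ne_zero
  haveI : NeZero p := ⟨hp0⟩
  obtain ⟨χ₁, hf1, hR1, ha⟩ := exists_char_of_not_mem (R1B l) (aV l) h1 (N := 2) (by norm_num)
    (AddSubgroup.mem_sup_right (AddSubgroup.mem_zmultiples _))
  have hmem2 : p • eV l ∈ R2B l := AddSubgroup.subset_closure (Or.inr rfl)
  obtain ⟨χ₂, hf2, hR2, he⟩ := exists_char_of_not_mem (R2B l) (eV l) h2 hp0 hmem2
  refine tile_of_structure χ₁ χ₂ hf1 hf2 (χ₁ (aV l)) ha ?_ (χ₂ (eV l)) ?_ F l (Or.inr ?_)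
  · have := hR1 (2 • aV l) (AddSubgroup.mem_sup_right (AddSubgroup.mem_zmultiples _))
    rw [map_nsmul, two_nsmul] at this
    exact this
  · apply order_of_prime he
    rw [← map_nsmul]
    exact hR2 _ hmem2
  · refine ⟨χ₁ (el l false 0), fun b => χ₂ (el l b 0), ?_⟩
    intro f
    have hf : (f : Fin d → ℤ) = el l (l f).1 (l f).2 := (el_l l f).symm
    generalize (l f).1 = b at hf ⊢
    generalize (l f).2 = j at hf ⊢
    rw [hf]
    constructor
    · have hS : el l b j - el l b 0 ∈ R1B l :=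
        AddSubgroup.mem_sup_left (AddSubgroup.subset_closure ⟨b, j, 0, rfl⟩)
      have h3 := hR1 _ hS
      rw [map_sub, sub_eq_zero] at h3
      rw [h3]
      cases b
      · simp
      · simp only [if_true, aV, map_sub]
        abel
    · have hS : el l b j - el l b 0 - j.val • eV l ∈ R2B l :=
        AddSubgroup.subset_closure (Or.inl ⟨b, j, rfl⟩)
      have h3 := hR2 _ hS
      rw [map_sub, map_sub, map_nsmul] at h3
      rw [sub_sub, sub_eq_zero] at h3
      rw [h3]

theorem periodic_of_condA (l : F ≃ Bool × ZMod p) (h : CondA l) :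
    ∃ A : Set (Fin d → ℤ), IsTiling A F ∧ IsPeriodic A := by
  obtain ⟨h1, h2⟩ := h
  have hp0 : p ≠ 0 := (Fact.out : p.Prime).ne_zero
  haveI : NeZero p := ⟨hp0⟩
  have hmem1 : 2 • aV l ∈ R1A l := AddSubgroup.subset_closure (Or.inr rfl)
  obtain ⟨χ₁, hf1, hR1, ha⟩ := exists_char_of_not_mem (R1A l) (aV l) h1 (N := 2) (by norm_num) hmem1
  have hmem2 : p • eV l ∈ R2A l := AddSubgroup.subset_closure (Or.inr rfl)
  obtain ⟨χ₂, hf2, hR2, he⟩ := exists_char_of_not_mem (R2A l) (eV l) h2 hp0 hmem2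
  refine tile_of_structure χ₁ χ₂ hf1 hf2 (χ₁ (aV l)) ha ?_ (χ₂ (eV l)) ?_ F l (Or.inl ?_)
  · have := hR1 (2 • aV l) hmem1
    rw [map_nsmul, two_nsmul] at this
    exact this
  · apply order_of_prime he
    rw [← map_nsmul]
    exact hR2 _ hmem2
  · refine ⟨fun j => χ₁ (el l false j), χ₂ (el l false 0), ?_⟩
    intro f
    have hf : (f : Fin d → ℤ) = el l (l f).1 (l f).2 := (el_l l f).symm
    generalize (l f).1 = b at hf ⊢
    generalize (l f).2 = j at hf ⊢
    rw [hf]
    constructor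
    · cases b
      · simp
      · have hS : el l true j - el l false j - aV l ∈ R1A l :=
          AddSubgroup.subset_closure (Or.inl ⟨j, rfl⟩)
        have h3 := hR1 _ hS
        rw [map_sub, map_sub] at h3
        rw [sub_sub, sub_eq_zero] at h3
        simpa using h3
    · have hS : el l b j - el l false 0 - j.val • eV l ∈ R2A l :=
        AddSubgroup.subset_closure (Or.inl ⟨b, j, rfl⟩)
      have h3 := hR2 _ hS
      rw [map_sub, map_sub, map_nsmul] at h3
      rw [sub_sub, sub_eq_zero] at h3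
      rw [h3]

end P043
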