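import Vale.Agent.Lib.P043.Ops

open scoped BigOperators
open Classical

namespace P043

variable {d p : ℕ} [hpF : Fact p.Prime] {F : Finset (Fin d → ℤ)}

/-- all differences of `F`. -/
noncomputable def diffList (F : Finset (Fin d → ℤ)) : List (Fin d → ℤ) :=
  (F ×ˢ F).toList.map (fun q => q.1 - q.2)

lemma mem_diffList {f f' : Fin d → ℤ} (hf : f ∈ F) (hf' : f' ∈ F) : f - f' ∈ diffList F := by
  rw [diffList, List.mem_map]
  exact ⟨(f, f'), by simp [hf, hf'], rfl⟩

/-- Dichotomy for vanishing character values. -/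
lemma dichotomy (hp2 : p ≠ 2) (hcard : F.card = 2 * p) (ρ : AddChar (Fin d → ℤ) ℂ)
    (h : ∀ k : ℕ, ∑ f : F, ρ (f : Fin d → ℤ) ^ (2 * p * k + 1) = 0) :
    TypeM F ρ ∨ ∃ l : F ≃ Bool × ZMod p, TypeL l ρ := by
  have hc : Fintype.card F = 2 * p := by simpa using hcard
  rcases vanishing_structure (Fact.out : p.Prime) hp2 hc (fun f : F => ρ (f : Fin d → ℤ))
      (fun f => char_ne_zero ρ _) h with h1 | ⟨l, t, ht⟩
  · left
    intro c
    convert h1 c
  · right
    exact ⟨l, t, ht⟩

theorem core (hp2 : p ≠ 2) (hcard : F.card = 2 * p)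
    (hgen : AddSubgroup.closure {x : Fin d → ℤ | ∃ f ∈ F, ∃ f' ∈ F, x = f - f'} = ⊤)
    (hT : ∃ A, IsTiling A F) :
    ∃ l : F ≃ Bool × ZMod p, CondA l ∨ CondB l := by
  by_contra hno
  push Not at hno
  have hNA : ∀ l : F ≃ Bool × ZMod p, ¬ CondA l := fun l => (hno l).1
  have hNB : ∀ l : F ≃ Bool × ZMod p, ¬ CondB l := fun l => (hno l).2
  have hp : p.Prime := Fact.out
  haveI : NeZero p := ⟨hp.ne_zero⟩
  have hpodd : Odd p := hp.odd_of_ne_two hp2
  have hFne : F.Nonempty := by
    rw [← Finset.card_pos, hcard]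
    have := hp.pos
    omega
  -- the odd exponent
  choose Kl hKlodd hKl using fun l : F ≃ Bool × ZMod p => exists_odd_exponent l hp2 hgen (hNB l)
  let K : ℕ := ∏ l : F ≃ Bool × ZMod p, Kl l
  have hKodd : Odd K := by
    have : ∀ s : Finset (F ≃ Bool × ZMod p), Odd (∏ l ∈ s, Kl l) := by
      intro s
      induction s using Finset.induction_on with
      | empty => simp
      | insert a s ha ih => rw [Finset.prod_insert ha]; exact (hKlodd a).mul ih
    exact this _
  have hKρ : ∀ (l : F ≃ Bool × ZMod p) (ρ : AddChar (Fin d → ℤ) ℂ), TypeL l ρ → ∀ v, ρ v ^ K = 1 := by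
    intro l ρ h v
    have hdvd : Kl l ∣ K := Finset.dvd_prod_of_mem _ (Finset.mem_univ l)
    obtain ⟨e, he⟩ := hdvd
    rw [he, pow_mul, hKl l ρ h v, one_pow]
  have hKpos : 0 < K := hKodd.pos
  haveI : NeZero K := ⟨hKpos.ne'⟩
  -- the tiling
  obtain ⟨A, _, hdil⟩ := exists_dilation_stable F hFne hT
  let u : (Fin d → ℤ) → ℤ := fun x => if x ∈ A then 1 else 0
  have hu01 : ∀ x, 0 ≤ u x ∧ u x ≤ 1 := by
    intro x
    simp only [u]
    split_ifs <;> norm_num
  have hsumu : ∀ r : ℕ, 0 < r → r.Coprime F.card → ∀ x, ∑ f ∈ F, u (x - r • f) = 1 := by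
    intro r hr hc x
    obtain ⟨f0, ⟨hf0, hf0A⟩, huniq⟩ := hdil r hr hc x
    rw [Finset.sum_eq_single_of_mem f0 hf0]
    · simp only [u]; rw [if_pos hf0A]
    · intro g hg hgne
      have : x - r • g ∉ A := fun hA => hgne (huniq g ⟨hg, hA⟩)
      simp only [u]; rw [if_neg this]
  let C : ℂ := 1 / ((2 * p : ℕ) : ℂ)
  let u0 : (Fin d → ℤ) → ℂ := fun x => (u x : ℂ) - C
  have hu0bd : ∃ B, ∀ x, ‖u0 x‖ ≤ B := by
    refine ⟨1 + ‖C‖, fun x => ?_⟩
    refine (norm_sub_le _ _).trans ?_
    have h1 : ‖(u x : ℂ)‖ ≤ 1 := by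
      simp only [u]
      split_ifs <;> simp
    linarith
  have hcop : ∀ k : ℕ, (2 * p * k + 1).Coprime F.card := by
    intro k
    rw [hcard]
    simp
  -- spectral points
  have hspec : ∀ z : AddChar (Fin d → ℤ) ℂ, IsSpectral u0 z →
      TypeM F z⁻¹ ∨ ∃ l : F ≃ Bool × ZMod p, TypeL l z⁻¹ := by
    intro z hz
    apply dichotomy hp2 hcard
    intro k
    set r := 2 * p * k + 1 with hr
    have hrpos : 0 < r := by omega
    have hinj : Function.Injective (fun f : Fin d → ℤ => -(r • f)) := by
      intro a b hab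
      have h1 : r • a = r • b := neg_injective hab
      funext i
      have h2 := congrFun h1 i
      simp only [Pi.smul_apply, nsmul_eq_mul] at h2
      exact mul_left_cancel₀ (by positivity) h2
    have h1 := hz (F.image (fun f : Fin d → ℤ => -(r • f))) (fun _ => 1) (by
      intro x
      rw [Finset.sum_image (fun a _ b _ h => hinj h)]
      simp only [one_mul, u0]
      rw [Finset.sum_sub_distrib]
      have h2 : ∑ f ∈ F, (u (x + -(r • f)) : ℂ) = 1 := by
        have h3 := hsumu r hrpos (hcop k) x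
        have h4 : ((∑ f ∈ F, u (x - r • f) : ℤ) : ℂ) = 1 := by rw [h3]; simp
        rw [← h4]
        push_cast
        apply Finset.sum_congr rfl
        intro f _
        rw [sub_eq_add_neg]
      rw [h2, Finset.sum_const, hcard]
      simp only [C, nsmul_eq_mul]
      have : ((2 * p : ℕ) : ℂ) ≠ 0 := by
        have := hp.ne_zero
        exact_mod_cast (by omega : 2 * p ≠ 0)
      field_simp
      push_cast
      ring)
    rw [Finset.sum_image (fun a _ b _ h => hinj h)] at h1
    simp only [one_mul] at h1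
    rw [← Finset.sum_coe_sort] at h1
    convert h1 using 2 with f
    rw [AddChar.inv_apply, ← AddChar.map_nsmul_eq_pow, smul_neg]
  -- the function c
  let DK : List (Fin d → ℤ) := (diffList F).map (fun q => K • q)
  let m : ℕ := DK.length
  let c : (Fin d → ℤ) → ℤ := sums DK u
  have hinv : ∀ (z : AddChar (Fin d → ℤ) ℂ) (v : Fin d → ℤ), z v = z⁻¹ (-v) := by
    intro z v
    rw [AddChar.inv_apply, neg_neg]
  have hKneg : (-1 : ℂ) ^ K = -1 := hKodd.neg_one_pow
  have hcper : ∀ x v : Fin d → ℤ, c (x + K • v) = c x := by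
    intro x v
    have hk := kill u0 hu0bd ((K • v, (1 : ℂ)) :: DK.map (fun d => (d, (-1 : ℂ)))) (by
      intro q hq
      rcases List.mem_cons.mp hq with rfl | hq
      · simp
      · obtain ⟨w, _, rfl⟩ := List.mem_map.mp hq
        simp) (by
      intro z hz
      rcases hspec z hz with hM | ⟨l, hL⟩
      · obtain ⟨f⟩ := hFne.to_subtype
        obtain ⟨f', hf'⟩ := typeM_partner hM f
        refine ⟨(K • ((f : Fin d → ℤ) - f'), -1), ?_, ?_⟩
        · refine List.mem_cons_of_mem _ (List.mem_map.mpr ⟨K • ((f : Fin d → ℤ) - f'), ?_, rfl⟩)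
          exact List.mem_map.mpr ⟨_, mem_diffList f.2 f'.2, rfl⟩
        · simp only
          rw [AddChar.map_nsmul_eq_pow]
          have : z ((f : Fin d → ℤ) - f') = -1 := by
            rw [hinv, neg_sub, char_sub, hf']
            have := char_ne_zero z⁻¹ (f : Fin d → ℤ)
            field_simp
          rw [this, hKneg]
      · refine ⟨(K • v, 1), List.mem_cons_self, ?_⟩
        simp only
        rw [AddChar.map_nsmul_eq_pow, hinv]
        exact hKρ l _ hL _) x
    simp only [prodOp] at hk
    have h1 := prodOp_sums DK u C (x + K • v)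
    have h2 := prodOp_sums DK u C x
    rw [show u0 = fun y => (u y : ℂ) - C from rfl] at hk
    rw [h1, h2] at hk
    have h3 : ((sums DK u (x + K • v) : ℤ) : ℂ) = ((sums DK u x : ℤ) : ℂ) := by
      linear_combination hk
    exact_mod_cast h3
  obtain ⟨cb, hcb⟩ := descend (K := K) c hcper
  -- bounds and sums
  have hcbd : ∀ h, 0 ≤ cb h ∧ cb h ≤ 2 ^ m := by
    intro h
    obtain ⟨x, rfl⟩ := red_surj (d := d) (K := K) h
    rw [hcb]
    exact sums_bounds DK u hu01 x
  have hPc : ∀ r : ℕ, 0 < r → r.Coprime F.card → ∀ h, ∑ f ∈ F, cb (h - r • red d K f) = 2 ^ m := by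
    intro r hr hc h
    obtain ⟨x, rfl⟩ := red_surj (d := d) (K := K) h
    have h1 : ∀ f ∈ F, cb (red d K x - r • red d K f) = sums DK u (x - r • f) := by
      intro f _
      rw [← map_nsmul, ← map_sub, hcb]
    rw [Finset.sum_congr rfl h1, sums_sum F (fun f => r • f) DK u x]
    have h2 : (fun y => ∑ f ∈ F, u (y - r • f)) = fun _ => (1 : ℤ) := by
      funext y
      exact hsumu r hr hc y
    rw [h2, sums_const]
    simp [m]
  have hKH : ∀ h : Fin d → ZMod K, K • h = 0 := by
    intro h
    funext i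
    simp
  have hHodd : Odd (Fintype.card (Fin d → ZMod K)) := by
    rw [Fintype.card_fun, ZMod.card, Fintype.card_fin]
    exact hKodd.pow
  have hsum : 2 * (p : ℤ) * ∑ h, cb h = 2 ^ m * Fintype.card (Fin d → ZMod K) := by
    have h1 : ∑ h : Fin d → ZMod K, ∑ f ∈ F, cb (h - 1 • red d K f) =
        ∑ _h : Fin d → ZMod K, (2 : ℤ) ^ m := by
      apply Finset.sum_congr rfl
      intro h _
      exact hPc 1 one_pos (Nat.coprime_one_left _) h
    rw [Finset.sum_comm] at h1
    have h2 : ∀ f ∈ F, ∑ h : Fin d → ZMod K, cb (h - 1 • red d K f) = ∑ h, cb h := by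
      intro f _
      exact Fintype.sum_equiv (Equiv.subRight (1 • red d K f)) _ _ (fun _ => rfl)
    rw [Finset.sum_congr rfl h2, Finset.sum_const, Finset.sum_const, hcard] at h1
    simp only [Finset.card_univ, nsmul_eq_mul] at h1
    push_cast at h1
    linarith
  -- apply the finale
  refine finale hKodd hKH hHodd cb m p hp.one_lt hpodd hcbd hsum ?_
  intro ψ hψ1 hψc
  let ψG : AddChar (Fin d → ℤ) ℂ := ψ.compAddMonoidHom (red d K)
  have hψK : ∀ v, ψG v ^ K = 1 := by
    intro v
    change ψ (red d K v) ^ K = 1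
    rw [← AddChar.map_nsmul_eq_pow, hKH]
    simp
  -- zeros of F at ψ
  have hzero : ∀ k : ℕ, ∑ f : F, ψG (f : Fin d → ℤ) ^ (2 * p * k + 1) = 0 := by
    intro k
    set r := 2 * p * k + 1 with hr
    have hrpos : 0 < r := by omega
    have h1 : ∑ h : Fin d → ZMod K, ((∑ f ∈ F, cb (h - r • red d K f) : ℤ) : ℂ) * ψ h =
        ∑ h : Fin d → ZMod K, ((2 : ℂ) ^ m) * ψ h := by
      apply Finset.sum_congr rfl
      intro h _
      rw [hPc r hrpos (hcop k) h]
      push_cast
      rfl
    rw [← Finset.mul_sum, (AddChar.sum_eq_zero_iff_ne_zero.mpr (fun h0 => hψ1 (by rw [h0, AddChar.one_eq_zero]))), mul_zero] at h1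
    push_cast at h1
    simp only [Finset.sum_mul] at h1
    rw [Finset.sum_comm] at h1
    have h2 : ∀ f ∈ F, ∑ h : Fin d → ZMod K, (cb (h - r • red d K f) : ℂ) * ψ h =
        ψG f ^ r * ∑ h, (cb h : ℂ) * ψ h := by
      intro f _
      rw [Finset.mul_sum]
      apply Fintype.sum_equiv (Equiv.subRight (r • red d K f))
      intro h
      simp only [Equiv.subRight_apply]
      have h3 : ψ h = ψ (h - r • red d K f) * ψG f ^ r := by
        change ψ h = ψ (h - r • red d K f) * ψ (red d K f) ^ r
        rw [← AddChar.map_nsmul_eq_pow, ← AddChar.map_add_eq_mul]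
        simp
      rw [h3]
      ring
    rw [Finset.sum_congr rfl h2, ← Finset.sum_mul] at h1
    have h3 := (mul_eq_zero.mp h1).resolve_right hψc
    rw [← Finset.sum_coe_sort] at h3
    exact h3
  -- type of ψ
  have hψL : ∃ l : F ≃ Bool × ZMod p, TypeL l ψG := by
    rcases dichotomy hp2 hcard ψG hzero with hM | h
    · exfalso
      obtain ⟨f⟩ := hFne.to_subtype
      obtain ⟨f', hf'⟩ := typeM_partner hM f
      have h1 : ψG ((f' : Fin d → ℤ) - f) = -1 := by
        rw [char_sub, hf']
        have := char_ne_zero ψG (f : Fin d → ℤ)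
        field_simp
      have h2 := hψK ((f' : Fin d → ℤ) - f)
      rw [h1, hKneg] at h2
      norm_num at h2
    · exact h
  obtain ⟨l, hl⟩ := hψL
  -- the list of differences not in the kernel
  let Hψ : List (Fin d → ℤ) := (diffList F).filter (fun q => ψG q ≠ 1)
  let L2 : List (Fin d → ℤ) := Hψ.map (fun q => 2 • q)
  let g : (Fin d → ℤ) → ℤ := diffs L2 u
  have hgper : ∀ x v : Fin d → ℤ, g (x + K • v) = g x := by
    intro x v
    have hk := kill u0 hu0bd ((K • v, (1 : ℂ)) :: L2.map (fun d => (d, (1 : ℂ)))) (by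
      intro q hq
      rcases List.mem_cons.mp hq with rfl | hq
      · simp
      · obtain ⟨w, _, rfl⟩ := List.mem_map.mp hq
        simp) (by
      intro z hz
      rcases hspec z hz with hM | ⟨l', hL⟩
      · obtain ⟨f, hf, f', hf', h1, h2⟩ := hit hM hl hNA
        refine ⟨(2 • (f - f'), 1), ?_, ?_⟩
        · refine List.mem_cons_of_mem _ (List.mem_map.mpr ⟨2 • (f - f'), ?_, rfl⟩)
          refine List.mem_map.mpr ⟨f - f', ?_, rfl⟩
          rw [List.mem_filter]
          refine ⟨mem_diffList hf hf', ?_⟩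
          have h3 : ψG (f - f') ≠ 1 := by
            intro h4
            apply h2
            have h5 : ψG (f' - f) * ψG (f - f') = 1 := by
              rw [← AddChar.map_add_eq_mul]; simp
            rw [h4, mul_one] at h5
            exact h5
          simpa using h3
        · simp only
          rw [AddChar.map_nsmul_eq_pow]
          have : z (f - f') = -1 := by
            rw [hinv, neg_sub]
            exact h1
          rw [this]
          norm_num
      · refine ⟨(K • v, 1), List.mem_cons_self, ?_⟩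
        simp only
        rw [AddChar.map_nsmul_eq_pow, hinv]
        exact hKρ l' _ hL _) x
    simp only [prodOp] at hk
    have h1 := prodOp_diffs L2 u C (x + K • v)
    have h2 := prodOp_diffs L2 u C x
    rw [show u0 = fun y => (u y : ℂ) - C from rfl] at hk
    rw [h1, h2] at hk
    have h3 : ((diffs L2 u (x + K • v) : ℤ) : ℂ) = ((diffs L2 u x : ℤ) : ℂ) := by
      linear_combination hk
    exact_mod_cast h3
  obtain ⟨gb, hgb⟩ := descend (K := K) g hgper
  refine ⟨L2.map (red d K), gb, ?_, ?_⟩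
  · intro v hv
    obtain ⟨w, hw, rfl⟩ := List.mem_map.mp hv
    obtain ⟨q, hq, rfl⟩ := List.mem_map.mp hw
    rw [List.mem_filter] at hq
    have hq2 : ψG q ≠ 1 := by simpa using hq.2
    intro h4
    apply hq2
    have h5 : ψG q ^ 2 = 1 := by
      change ψ (red d K q) ^ 2 = 1
      rw [← AddChar.map_nsmul_eq_pow, ← map_nsmul]
      exact h4
    obtain ⟨a, ha⟩ := hKodd
    have h6 := hψK q
    rw [ha, pow_succ, pow_mul, h5, one_pow, one_mul] at h6
    exact h6
  · intro x
    obtain ⟨y, rfl⟩ := red_surj (d := d) (K := K) x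
    rw [diffs_red L2 c cb hcb y, hgb]
    have h1 : diffs L2 c y = sums DK (diffs L2 u) y := by
      rw [show c = sums DK u from rfl, diffs_sums_comm]
    rw [h1]
    apply sums_periodic
    intro x' d' hd'
    obtain ⟨w, _, rfl⟩ := List.mem_map.mp hd'
    exact hgper x' w

end P043
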