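import Mathlib

/-!
# P043: tiles of size `2p` (definitions shared by all modules)
-/

open scoped BigOperators

namespace P043

/-- `A ⊕ F = G`: every `x` is uniquely `a + f`. -/
def IsTiling {G : Type*} [AddCommGroup G] (A : Set G) (F : Finset G) : Prop :=
  ∀ x : G, ∃! q : G × G, q.1 ∈ A ∧ q.2 ∈ F ∧ q.1 + q.2 = x

/-- `A + h = A` for all `h` in a subgroup of finite index. -/
def IsPeriodic {G : Type*} [AddCommGroup G] (A : Set G) : Prop :=
  ∃ L : AddSubgroup G, L.FiniteIndex ∧ ∀ h ∈ L, ∀ x, x + h ∈ A ↔ x ∈ A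

/-- `z` is a spectral point of `g`: every finite linear relation satisfied by the translates of `g`
is satisfied by `z`. -/
def IsSpectral {G : Type*} [AddCommGroup G] (g : G → ℂ) (z : AddChar G ℂ) : Prop :=
  ∀ (s : Finset G) (a : G → ℂ), (∀ x, ∑ v ∈ s, a v * g (x + v) = 0) → ∑ v ∈ s, a v * z v = 0

/-- The operator `∏_{(v,c) ∈ L} (T_v - c)`, `T_v g (x) = g (x + v)`. -/
noncomputable def prodOp {G : Type*} [AddCommGroup G] : List (G × ℂ) → (G → ℂ) → G → ℂ
  | [], g => g
  | q :: L, g => fun x => prodOp L g (x + q.1) - q.2 * prodOp L g x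

/-- Iterated differences `∏_{v ∈ L} (T_v - 1)` on integer valued functions. -/
def diffs {H : Type*} [AddCommGroup H] : List H → (H → ℤ) → H → ℤ
  | [], c => c
  | v :: L, c => fun x => diffs L c (x + v) - diffs L c x

/-- Iterated sums `∏_{v ∈ L} (T_v + 1)` on integer valued functions. -/
def sums {H : Type*} [AddCommGroup H] : List H → (H → ℤ) → H → ℤ
  | [], c => c
  | v :: L, c => fun x => sums L c (x + v) + sums L c x

end P043
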