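import Vale.Agent.Lib.P043.Core

open scoped BigOperators
open Classical

namespace P043

variable {p : ℕ} [hpF : Fact p.Prime]

/-- Every hom from `ℤ^d` to `ℚ/ℤ` has finite range. -/
theorem finite_range_char {d : ℕ} (χ : (Fin d → ℤ) →+ AddCircle (1 : ℚ)) : (Set.range χ).Finite := by
  have hfg : AddGroup.FG (Fin d → ℤ) := by
    have : Module.Finite ℤ (Fin d → ℤ) := inferInstance
    exact (Module.Finite.iff_addGroup_fg.1 this)
  have hfgr : AddGroup.FG χ.range := AddGroup.fg_range χ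
  have htors : AddMonoid.IsTorsion χ.range := by
    intro y
    obtain ⟨n, hn, hy⟩ := m1b_torsion (y : AddCircle (1 : ℚ))
    refine isOfFinAddOrder_iff_nsmul_eq_zero.2 ⟨n, hn, ?_⟩
    ext
    simpa using hy
  have hfin : Finite χ.range := AddCommGroup.finite_of_fg_torsion _ htors
  have : Set.range χ = (χ.range : Set (AddCircle (1 : ℚ))) := by
    ext y; simp
  rw [this]
  exact Set.toFinite _

/-- Structure data on `F ⊂ ℤ^n`. -/
def HasStructure {n : ℕ} (F : Finset (Fin n → ℤ)) (p : ℕ) : Prop :=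
  ∃ (χ₁ χ₂ : (Fin n → ℤ) →+ AddCircle (1 : ℚ)) (ι η : AddCircle (1 : ℚ)) (l : F ≃ Bool × ZMod p),
    ι ≠ 0 ∧ ι + ι = 0 ∧ addOrderOf η = p ∧
    ((∃ (a : ZMod p → AddCircle (1 : ℚ)) (t : AddCircle (1 : ℚ)), ∀ f : F,
            χ₁ f = a (l f).2 + (if (l f).1 then ι else 0) ∧ χ₂ f = t + (l f).2.val • η) ∨
     (∃ (a : AddCircle (1 : ℚ)) (t : Bool → AddCircle (1 : ℚ)), ∀ f : F,
            χ₁ f = a + (if (l f).1 then ι else 0) ∧ χ₂ f = t (l f).1 + (l f).2.val • η))

theorem hasStructure_of_condB {n : ℕ} {F : Finset (Fin n → ℤ)} (l : F ≃ Bool × ZMod p)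
    (h : CondB l) : HasStructure F p := by
  obtain ⟨h1, h2⟩ := h
  have hp0 : p ≠ 0 := (Fact.out : p.Prime).ne_zero
  obtain ⟨χ₁, hf1, hR1, ha⟩ := exists_char_of_not_mem (R1B l) (aV l) h1 (N := 2) (by norm_num)
    (AddSubgroup.mem_sup_right (AddSubgroup.mem_zmultiples _))
  have hmem2 : p • eV l ∈ R2B l := AddSubgroup.subset_closure (Or.inr rfl)
  obtain ⟨χ₂, hf2, hR2, he⟩ := exists_char_of_not_mem (R2B l) (eV l) h2 hp0 hmem2
  refine ⟨χ₁, χ₂, χ₁ (aV l), χ₂ (eV l), l, ha, ?_, ?_, Or.inr ?_⟩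
  · have := hR1 (2 • aV l) (AddSubgroup.mem_sup_right (AddSubgroup.mem_zmultiples _))
    rw [map_nsmul, two_nsmul] at this
    exact this
  · apply order_of_prime he
    rw [← map_nsmul]
    exact hR2 _ hmem2
  · refine ⟨χ₁ (el l false 0), fun b => χ₂ (el l b 0), ?_⟩
    intro f
    have hf : (f : Fin n → ℤ) = el l (l f).1 (l f).2 := (el_l l f).symm
    generalize (l f).1 = b at hf ⊢
    generalize (l f).2 = j at hf ⊢
    rw [hf]
    constructor
    · have hS : el l b j - el l b 0 ∈ R1B l :=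
        AddSubgroup.mem_sup_left (AddSubgroup.subset_closure ⟨b, j, 0, rfl⟩)
      have h3 := hR1 _ hS
      rw [map_sub, sub_eq_zero] at h3
      rw [h3]
      cases b
      · simp
      · simp only [if_true, aV, map_sub]
        abel
    · have hS : el l b j - el l b 0 - j.val • eV l ∈ R2B l :=
        AddSubgroup.subset_closure (Or.inl ⟨b, j, rfl⟩)
      have h3 := hR2 _ hS
      rw [map_sub, map_sub, map_nsmul] at h3
      rw [sub_sub, sub_eq_zero] at h3
      rw [h3]

theorem hasStructure_of_condA {n : ℕ} {F : Finset (Fin n → ℤ)} (l : F ≃ Bool × ZMod p)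
    (h : CondA l) : HasStructure F p := by
  obtain ⟨h1, h2⟩ := h
  have hp0 : p ≠ 0 := (Fact.out : p.Prime).ne_zero
  have hmem1 : 2 • aV l ∈ R1A l := AddSubgroup.subset_closure (Or.inr rfl)
  obtain ⟨χ₁, hf1, hR1, ha⟩ := exists_char_of_not_mem (R1A l) (aV l) h1 (N := 2) (by norm_num) hmem1
  have hmem2 : p • eV l ∈ R2A l := AddSubgroup.subset_closure (Or.inr rfl)
  obtain ⟨χ₂, hf2, hR2, he⟩ := exists_char_of_not_mem (R2A l) (eV l) h2 hp0 hmem2
  refine ⟨χ₁, χ₂, χ₁ (aV l), χ₂ (eV l), l, ha, ?_, ?_, Or.inl ?_⟩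
  · have := hR1 (2 • aV l) hmem1
    rw [map_nsmul, two_nsmul] at this
    exact this
  · apply order_of_prime he
    rw [← map_nsmul]
    exact hR2 _ hmem2
  · refine ⟨fun j => χ₁ (el l false j), χ₂ (el l false 0), ?_⟩
    intro f
    have hf : (f : Fin n → ℤ) = el l (l f).1 (l f).2 := (el_l l f).symm
    generalize (l f).1 = b at hf ⊢
    generalize (l f).2 = j at hf ⊢
    rw [hf]
    constructor
    · cases b
      · simp
      · have hS : el l true j - el l false j - aV l ∈ R1A l :=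
          AddSubgroup.subset_closure (Or.inl ⟨j, rfl⟩)
        have h3 := hR1 _ hS
        rw [map_sub, map_sub] at h3
        rw [sub_sub, sub_eq_zero] at h3
        simpa using h3
    · have hS : el l b j - el l false 0 - j.val • eV l ∈ R2A l :=
        AddSubgroup.subset_closure (Or.inl ⟨b, j, rfl⟩)
      have h3 := hR2 _ hS
      rw [map_sub, map_sub, map_nsmul] at h3
      rw [sub_sub, sub_eq_zero] at h3
      rw [h3]

/-- Main theorem: every finite tile of `ℤ^d` of size `2p`, `p` an odd prime, has a periodic tiling. -/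
theorem periodic_tiling_two_p {d : ℕ} (hp2 : p ≠ 2) (F : Finset (Fin d → ℤ)) (hF : F.card = 2 * p)
    (hT : ∃ A, IsTiling A F) : ∃ A, IsTiling A F ∧ IsPeriodic A := by
  have hp : p.Prime := Fact.out
  haveI : NeZero p := ⟨hp.ne_zero⟩
  have hFne : F.Nonempty := by
    rw [← Finset.card_pos, hF]
    have := hp.pos
    omega
  obtain ⟨f0, hf0⟩ := hFne
  -- the lattice of differences
  let gens : Set (Fin d → ℤ) := {x | ∃ f ∈ F, ∃ f' ∈ F, x = f - f'}
  let S : Submodule ℤ (Fin d → ℤ) := Submodule.span ℤ gens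
  let n : ℕ := Module.finrank ℤ S
  let b : Module.Basis (Fin n) ℤ S := Module.finBasis ℤ S
  let e : S ≃ₗ[ℤ] (Fin n → ℤ) := b.equivFun
  have hdmem : ∀ f ∈ F, ∀ f' ∈ F, f - f' ∈ S := fun f hf f' hf' =>
    Submodule.subset_span ⟨f, hf, f', hf', rfl⟩
  let dv : F → S := fun f => ⟨(f : Fin d → ℤ) - f0, hdmem _ f.2 _ hf0⟩
  have hdvinj : Function.Injective dv := by
    intro a c hac
    have h1 : (a : Fin d → ℤ) - f0 = (c : Fin d → ℤ) - f0 := congrArg Subtype.val hac
    exact Subtype.ext (sub_left_inj.mp h1)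
  let E0 : F → (Fin n → ℤ) := fun f => e (dv f)
  have hE0inj : Function.Injective E0 := fun a c hac => hdvinj (e.injective hac)
  let F' : Finset (Fin n → ℤ) := Finset.univ.image E0
  have hF'mem : ∀ f : F, E0 f ∈ F' := fun f => Finset.mem_image_of_mem _ (Finset.mem_univ f)
  have hF'card : F'.card = 2 * p := by
    rw [Finset.card_image_of_injective _ hE0inj]
    simpa using hF
  let E : F ≃ F' := Equiv.ofBijective (fun f => ⟨E0 f, hF'mem f⟩) (by
    constructor
    · intro a c hac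
      exact hE0inj (congrArg Subtype.val hac)
    · rintro ⟨g, hg⟩
      obtain ⟨f, _, rfl⟩ := Finset.mem_image.mp hg
      exact ⟨f, rfl⟩)
  -- generation
  have hgen : AddSubgroup.closure {x : Fin n → ℤ | ∃ f ∈ F', ∃ f' ∈ F', x = f - f'} = ⊤ := by
    rw [eq_top_iff]
    intro y _
    have key : ∀ s : S, e s ∈ AddSubgroup.closure {x : Fin n → ℤ | ∃ f ∈ F', ∃ f' ∈ F', x = f - f'} := by
      rintro ⟨s, hs⟩
      induction hs using Submodule.span_induction with
      | mem x hx =>
        obtain ⟨f, hf, f', hf', rfl⟩ := hx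
        apply AddSubgroup.subset_closure
        refine ⟨E0 ⟨f, hf⟩, hF'mem _, E0 ⟨f', hf'⟩, hF'mem _, ?_⟩
        simp only [E0]
        rw [← map_sub]
        congr 1
        apply Subtype.ext
        simp [dv]
      | zero =>
        have : e (⟨0, Submodule.zero_mem _⟩ : S) = 0 := by
          have h0 : (⟨0, Submodule.zero_mem _⟩ : S) = 0 := rfl
          rw [h0, map_zero]
        rw [this]
        exact AddSubgroup.zero_mem _
      | add x y hx hy ihx ihy =>
        have : e (⟨x + y, Submodule.add_mem _ hx hy⟩ : S) = e ⟨x, hx⟩ + e ⟨y, hy⟩ := by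
          rw [← map_add]; rfl
        rw [this]
        exact AddSubgroup.add_mem _ ihx ihy
      | smul a x hx ih =>
        have : e (⟨a • x, Submodule.smul_mem _ a hx⟩ : S) = a • e ⟨x, hx⟩ := by
          rw [← map_smul]; rfl
        rw [this]
        exact AddSubgroup.zsmul_mem _ ih a
    have := key (e.symm y)
    simpa using this
  -- tiling of the lattice
  have hT' : ∃ A, IsTiling A F' := by
    obtain ⟨A, hA⟩ := hT
    refine ⟨{y | ((e.symm y : S) : Fin d → ℤ) ∈ A}, ?_⟩
    intro y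
    set v : Fin d → ℤ := ((e.symm y : S) : Fin d → ℤ) with hv
    have hvS : v ∈ S := (e.symm y).2
    obtain ⟨⟨a, f⟩, ⟨haA, hfF, hsum⟩, huniq⟩ := hA (v + f0)
    simp only at haA hfF hsum huniq
    have haS : a ∈ S := by
      have h1 : a = v - (f - f0) := by
        rw [eq_sub_iff_add_eq, show a + (f - f0) = (a + f) - f0 by abel, hsum]
        abel
      rw [h1]
      exact Submodule.sub_mem _ hvS (hdmem f hfF f0 hf0)
    refine ⟨(e ⟨a, haS⟩, E0 ⟨f, hfF⟩), ⟨?_, hF'mem _, ?_⟩, ?_⟩
    · change ((e.symm (e ⟨a, haS⟩) : S) : Fin d → ℤ) ∈ A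
      simpa using haA
    · simp only [E0]
      rw [← map_add]
      have h2 : (⟨a, haS⟩ + dv ⟨f, hfF⟩ : S) = e.symm y := by
        apply Subtype.ext
        simp only [dv, Submodule.coe_add]
        change a + (f - f0) = v
        have h9 : a + f = v + f0 := hsum
        rw [show a + (f - f0) = (a + f) - f0 by abel, h9]
        abel
      rw [h2]
      simp
    · rintro ⟨a', g'⟩ ⟨ha', hg', hsum'⟩
      simp only at ha' hg' hsum'
      obtain ⟨f', _, rfl⟩ := Finset.mem_image.mp hg'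
      have ha'' : ((e.symm a' : S) : Fin d → ℤ) ∈ A := ha'
      have h1 : ((e.symm a' : S) : Fin d → ℤ) + (f' : Fin d → ℤ) = v + f0 := by
        have h2 : e.symm a' + dv f' = e.symm y := by
          rw [← hsum', map_add]
          simp [E0]
        have h3 := congrArg Subtype.val h2
        simp only [Submodule.coe_add, dv] at h3
        rw [hv, ← h3]
        abel
      have h4 := huniq (((e.symm a' : S) : Fin d → ℤ), (f' : Fin d → ℤ)) ⟨ha'', f'.2, h1⟩
      have h5 : ((e.symm a' : S) : Fin d → ℤ) = a := congrArg Prod.fst h4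
      have h6 : (f' : Fin d → ℤ) = f := congrArg Prod.snd h4
      have h7 : a' = e ⟨a, haS⟩ := by
        rw [← LinearEquiv.symm_apply_eq e]
        exact Subtype.ext h5
      have h8 : f' = ⟨f, hfF⟩ := Subtype.ext h6
      rw [h7, h8]
  -- the structure on the lattice
  obtain ⟨l', hl'⟩ := core (F := F') hp2 hF'card hgen hT'
  have hst : HasStructure F' p := by
    rcases hl' with h | h
    · exact hasStructure_of_condA l' h
    · exact hasStructure_of_condB l' h
  obtain ⟨χ₁, χ₂, ι, η, l2, hι0, hι2, hη, hcases⟩ := hst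
  -- lifting characters
  have hlift : ∀ χ : (Fin n → ℤ) →+ AddCircle (1 : ℚ), ∃ χt : (Fin d → ℤ) →+ AddCircle (1 : ℚ),
      ∀ s : S, χt (s : Fin d → ℤ) = χ (e s) := by
    intro χ
    let c : CharacterModule S := χ.comp (e.toLinearMap.toAddMonoidHom)
    obtain ⟨χt, hχt⟩ := CharacterModule.dual_surjective_of_injective S.subtype
      (Submodule.injective_subtype S) c
    refine ⟨χt, fun s => ?_⟩
    have := congrArg (fun L : CharacterModule S => L s) hχt
    exact this
  obtain ⟨X₁, hX₁⟩ := hlift χ₁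
  obtain ⟨X₂, hX₂⟩ := hlift χ₂
  let l : F ≃ Bool × ZMod p := E.trans l2
  have hval₁ : ∀ f : F, X₁ f = X₁ f0 + χ₁ (E f : Fin n → ℤ) := by
    intro f
    have h1 := hX₁ (dv f)
    have h2 : X₁ (((dv f : S)) : Fin d → ℤ) = X₁ f - X₁ f0 := by
      simp [dv, map_sub]
    rw [h2] at h1
    have h3 : (E f : Fin n → ℤ) = e (dv f) := rfl
    rw [h3, ← h1]
    abel
  have hval₂ : ∀ f : F, X₂ f = X₂ f0 + χ₂ (E f : Fin n → ℤ) := by
    intro f
    have h1 := hX₂ (dv f)
    have h2 : X₂ (((dv f : S)) : Fin d → ℤ) = X₂ f - X₂ f0 := by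
      simp [dv, map_sub]
    rw [h2] at h1
    have h3 : (E f : Fin n → ℤ) = e (dv f) := rfl
    rw [h3, ← h1]
    abel
  refine tile_of_structure X₁ X₂ (finite_range_char X₁) (finite_range_char X₂) ι hι0 hι2 η hη F l ?_
  rcases hcases with ⟨a, t, h⟩ | ⟨a, t, h⟩
  · left
    refine ⟨fun j => X₁ f0 + a j, X₂ f0 + t, fun f => ?_⟩
    have h0 := h (E f)
    have hl : l f = l2 (E f) := rfl
    rw [hval₁, hval₂, hl, h0.1, h0.2]
    beta_reduce
    constructor <;> abel
  · right
    refine ⟨X₁ f0 + a, fun b => X₂ f0 + t b, fun f => ?_⟩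
    have h0 := h (E f)
    have hl : l f = l2 (E f) := rfl
    rw [hval₁, hval₂, hl, h0.1, h0.2]
    beta_reduce
    constructor <;> abel

end P043
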