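import Vale.Agent.Lib.P043.Cond

open scoped BigOperators
open Classical

namespace P043

variable {d p : ℕ}

/-- primitive `p`-th root of unity. -/
noncomputable def zetaP (p : ℕ) : ℂ := Complex.exp (2 * Real.pi * Complex.I / p)

/-- kernel of a character -/
noncomputable def kerChar {G : Type*} [AddCommGroup G] (ρ : AddChar G ℂ) : AddSubgroup G where
  carrier := {x | ρ x = 1}
  add_mem' := by
    intro a b ha hb
    change ρ (a + b) = 1
    change ρ a = 1 at ha
    change ρ b = 1 at hb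
    rw [AddChar.map_add_eq_mul, ha, hb, one_mul]
  zero_mem' := by simp
  neg_mem' := by
    intro a ha
    change ρ (-a) = 1
    change ρ a = 1 at ha
    have : ρ a * ρ (-a) = 1 := by rw [← AddChar.map_add_eq_mul]; simp
    rw [ha, one_mul] at this
    exact this

lemma mem_kerChar {G : Type*} [AddCommGroup G] (ρ : AddChar G ℂ) (x : G) :
    x ∈ kerChar ρ ↔ ρ x = 1 := Iff.rfl

lemma char_ne_zero {G : Type*} [AddCommGroup G] (ρ : AddChar G ℂ) (x : G) : ρ x ≠ 0 := by
  intro h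
  have : ρ x * ρ (-x) = 1 := by rw [← AddChar.map_add_eq_mul]; simp
  rw [h, zero_mul] at this
  exact zero_ne_one this

lemma char_sub {G : Type*} [AddCommGroup G] (ρ : AddChar G ℂ) (x y : G) :
    ρ (x - y) = ρ x / ρ y := AddChar.map_sub_eq_div ρ x y

variable [hpF : Fact p.Prime] {F : Finset (Fin d → ℤ)}

lemma p_pos : 0 < p := (Fact.out : p.Prime).pos

lemma zeta_prim : IsPrimitiveRoot (zetaP p) p :=
  Complex.isPrimitiveRoot_exp p (Fact.out : p.Prime).ne_zero

lemma zeta_pow_p : zetaP p ^ p = 1 := (zeta_prim (p := p)).pow_eq_one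

lemma zeta_ne_one : zetaP p ≠ 1 := (zeta_prim (p := p)).ne_one (Fact.out : p.Prime).one_lt

lemma zeta_ne_zero : zetaP p ≠ 0 := (zeta_prim (p := p)).ne_zero (Fact.out : p.Prime).ne_zero

lemma zeta_pow_inj {i j : ZMod p} (h : zetaP p ^ i.val = zetaP p ^ j.val) : i = j := by
  have h1 := (zeta_prim (p := p)).pow_inj (ZMod.val_lt i) (ZMod.val_lt j) h
  exact ZMod.val_injective p h1

/-- `ρ` on `F` is `t_b ζ^j` for the labelling `l`. -/
def TypeL (l : F ≃ Bool × ZMod p) (ρ : AddChar (Fin d → ℤ) ℂ) : Prop :=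
  ∃ t : Bool → ℂ, ∀ f : F, ρ (f : Fin d → ℤ) = t (l f).1 * zetaP p ^ (l f).2.val

/-- mult(c) = mult(-c) for the values of `ρ` on `F`. -/
def TypeM (F : Finset (Fin d → ℤ)) (ρ : AddChar (Fin d → ℤ) ℂ) : Prop :=
  ∀ c : ℂ, (Finset.univ.filter (fun f : F => ρ (f : Fin d → ℤ) = c)).card =
    (Finset.univ.filter (fun f : F => ρ (f : Fin d → ℤ) = -c)).card

lemma typeL_el {l : F ≃ Bool × ZMod p} {ρ : AddChar (Fin d → ℤ) ℂ} {t : Bool → ℂ}
    (ht : ∀ f : F, ρ (f : Fin d → ℤ) = t (l f).1 * zetaP p ^ (l f).2.val) (b : Bool) (j : ZMod p) :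
    ρ (el l b j) = t b * zetaP p ^ j.val := by
  have := ht (l.symm (b, j))
  simpa [el] using this

lemma val_one_eq : (1 : ZMod p).val = 1 := by
  haveI : Fact (1 < p) := ⟨(Fact.out : p.Prime).one_lt⟩
  exact ZMod.val_one p

lemma typeL_t_ne {l : F ≃ Bool × ZMod p} {ρ : AddChar (Fin d → ℤ) ℂ} {t : Bool → ℂ}
    (ht : ∀ f : F, ρ (f : Fin d → ℤ) = t (l f).1 * zetaP p ^ (l f).2.val) (b : Bool) : t b ≠ 0 := by
  intro h0
  have := typeL_el ht b 0
  rw [h0, zero_mul] at this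
  exact char_ne_zero ρ _ this

lemma typeL_eV {l : F ≃ Bool × ZMod p} {ρ : AddChar (Fin d → ℤ) ℂ} {t : Bool → ℂ}
    (ht : ∀ f : F, ρ (f : Fin d → ℤ) = t (l f).1 * zetaP p ^ (l f).2.val) :
    ρ (eV l) = zetaP p := by
  have h0 := typeL_t_ne ht false
  rw [eV, char_sub, typeL_el ht, typeL_el ht, val_one_eq, ZMod.val_zero, pow_zero, pow_one, mul_one]
  field_simp

lemma eV_not_mem_R2B {l : F ≃ Bool × ZMod p} {ρ : AddChar (Fin d → ℤ) ℂ} (h : TypeL l ρ) :
    eV l ∉ R2B l := by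
  obtain ⟨t, ht⟩ := h
  have hle : R2B l ≤ kerChar ρ := by
    rw [R2B, AddSubgroup.closure_le]
    rintro x (⟨b, j, rfl⟩ | rfl)
    · change ρ _ = 1
      have h0 := typeL_t_ne ht b
      have hz := zeta_ne_zero (p := p)
      rw [char_sub, char_sub, AddChar.map_nsmul_eq_pow, typeL_eV ht, typeL_el ht, typeL_el ht,
        ZMod.val_zero, pow_zero, mul_one]
      have : zetaP p ^ j.val ≠ 0 := pow_ne_zero _ hz
      field_simp
    · change ρ _ = 1
      rw [AddChar.map_nsmul_eq_pow, typeL_eV ht, zeta_pow_p]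
  intro hmem
  have := hle hmem
  rw [mem_kerChar, typeL_eV ht] at this
  exact zeta_ne_one this

/-- If `Sl + Z a` is everything and some odd multiple of `a` is in `Sl` then all odd multiples ... -/
lemma nsmul_mem_Sl (l : F ≃ Bool × ZMod p)
    (hgen : AddSubgroup.closure {x : Fin d → ℤ | ∃ f ∈ F, ∃ f' ∈ F, x = f - f'} = ⊤)
    {m : ℕ} (hm : m • aV l ∈ Sl l) (v : Fin d → ℤ) : m • v ∈ Sl l := by
  have hle : (⊤ : AddSubgroup (Fin d → ℤ)) ≤ (Sl l).comap (nsmulAddMonoidHom m) := by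
    rw [← hgen, AddSubgroup.closure_le]
    rintro x ⟨f, hf, f', hf', rfl⟩
    change m • (f - f') ∈ Sl l
    have e1 : f = el l (l ⟨f, hf⟩).1 (l ⟨f, hf⟩).2 := (el_l l ⟨f, hf⟩).symm
    have e2 : f' = el l (l ⟨f', hf'⟩).1 (l ⟨f', hf'⟩).2 := (el_l l ⟨f', hf'⟩).symm
    rw [e1, e2]
    generalize (l ⟨f, hf⟩).1 = b at *
    generalize (l ⟨f, hf⟩).2 = j at *
    generalize (l ⟨f', hf'⟩).1 = b' at *
    generalize (l ⟨f', hf'⟩).2 = j' at *
    have hS : ∀ b j j', m • (el l b j - el l b j') ∈ Sl l := fun b j j' =>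
      (Sl l).nsmul_mem (AddSubgroup.subset_closure ⟨b, j, j', rfl⟩) m
    cases b <;> cases b'
    · exact hS _ _ _
    · have : el l false j - el l true j' =
          (el l false j - el l false 0) - aV l - (el l true j' - el l true 0) := by
        simp only [aV]; abel
      rw [this, nsmul_sub, nsmul_sub]
      exact (Sl l).sub_mem ((Sl l).sub_mem (hS _ _ _) hm) (hS _ _ _)
    · have : el l true j - el l false j' =
          (el l true j - el l true 0) + aV l + (el l false 0 - el l false j') := by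
        simp only [aV]; abel
      rw [this, nsmul_add, nsmul_add]
      exact (Sl l).add_mem ((Sl l).add_mem (hS _ _ _) hm) (hS _ _ _)
    · exact hS _ _ _
  exact hle (AddSubgroup.mem_top v)

lemma typeL_Sl_pow {l : F ≃ Bool × ZMod p} {ρ : AddChar (Fin d → ℤ) ℂ} (h : TypeL l ρ)
    {s : Fin d → ℤ} (hs : s ∈ Sl l) : ρ s ^ p = 1 := by
  obtain ⟨t, ht⟩ := h
  have hle : Sl l ≤ (kerChar ρ).comap (nsmulAddMonoidHom p) := by
    rw [Sl, AddSubgroup.closure_le]
    rintro x ⟨b, j, j', rfl⟩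
    change ρ (p • _) = 1
    rw [AddChar.map_nsmul_eq_pow, char_sub, typeL_el ht, typeL_el ht, div_pow, mul_pow, mul_pow,
      ← pow_mul, ← pow_mul, mul_comm _ p, mul_comm _ p, pow_mul, pow_mul, zeta_pow_p]
    have := typeL_t_ne ht b
    simp only [one_pow, mul_one]
    exact div_self (pow_ne_zero _ this)
  have h1 : ρ (p • s) = 1 := hle hs
  rwa [AddChar.map_nsmul_eq_pow] at h1

/-- The odd exponent attached to a labelling. -/
theorem exists_odd_exponent (l : F ≃ Bool × ZMod p) (hp2 : p ≠ 2)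
    (hgen : AddSubgroup.closure {x : Fin d → ℤ | ∃ f ∈ F, ∃ f' ∈ F, x = f - f'} = ⊤)
    (hB : ¬ CondB l) :
    ∃ K : ℕ, Odd K ∧ ∀ ρ : AddChar (Fin d → ℤ) ℂ, TypeL l ρ → ∀ v, ρ v ^ K = 1 := by
  by_cases hex : ∃ ρ : AddChar (Fin d → ℤ) ℂ, TypeL l ρ
  · obtain ⟨ρ0, hρ0⟩ := hex
    have he := eV_not_mem_R2B hρ0
    have ha : aV l ∈ R1B l := by
      by_contra h
      exact hB ⟨h, he⟩
    rw [R1B, AddSubgroup.mem_sup] at ha
    obtain ⟨s, hs, y, hy, hsy⟩ := ha
    obtain ⟨k, rfl⟩ := AddSubgroup.mem_zmultiples_iff.mp hy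
    -- (1 - 2k) a = s
    have h1 : ((1 - 2 * k) : ℤ) • aV l ∈ Sl l := by
      have : ((1 - 2 * k) : ℤ) • aV l = s := by
        have h2 : k • (2 • aV l) = (2 * k) • aV l := by
          rw [← natCast_zsmul, smul_smul]; simp [mul_comm]
        have h5 : s = aV l - k • 2 • aV l := by
          rw [eq_sub_iff_add_eq]; exact hsy
        rw [sub_smul, one_smul, ← h2]
        exact h5.symm
      rw [this]; exact hs
    set m : ℕ := (1 - 2 * k).natAbs with hm
    have hmodd : Odd m := by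
      rw [hm, Int.natAbs_odd]
      exact ⟨-k, by ring⟩
    have hm2 : m • aV l ∈ Sl l := by
      rcases Int.natAbs_eq (1 - 2 * k) with h3 | h3
      · have : ((m : ℤ)) • aV l ∈ Sl l := by rw [← h3]; exact h1
        simpa using this
      · have : (-(m : ℤ)) • aV l ∈ Sl l := by rw [← h3]; exact h1
        have h4 := (Sl l).neg_mem this
        simpa using h4
    refine ⟨m * p, ?_, ?_⟩
    · refine hmodd.mul ?_
      exact (Fact.out : p.Prime).odd_of_ne_two hp2
    · intro ρ hρ v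
      rw [pow_mul, ← AddChar.map_nsmul_eq_pow]
      exact typeL_Sl_pow hρ (nsmul_mem_Sl l hgen hm2 v)
  · exact ⟨1, odd_one, fun ρ hρ => (hex ⟨ρ, hρ⟩).elim⟩

end P043
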