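import Vale.Agent.Lib.P043.Hit

open scoped BigOperators
open Classical

namespace P043

variable {d p : ℕ} [hpF : Fact p.Prime] {F : Finset (Fin d → ℤ)}

lemma typeM_partner {ρ : AddChar (Fin d → ℤ) ℂ} (h : TypeM F ρ) (f : F) :
    ∃ f' : F, ρ (f' : Fin d → ℤ) = - ρ (f : Fin d → ℤ) := by
  have h1 := h (ρ (f : Fin d → ℤ))
  have h2 : 0 < (Finset.univ.filter (fun g : F => ρ (g : Fin d → ℤ) = ρ (f : Fin d → ℤ))).card :=
    Finset.card_pos.mpr ⟨f, by simp⟩
  rw [h1] at h2
  obtain ⟨f', hf'⟩ := Finset.card_pos.mp h2
  exact ⟨f', (Finset.mem_filter.mp hf').2⟩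

/-- Relabelling with a permutation on the `true` class. -/
noncomputable def relabel (l : F ≃ Bool × ZMod p) (π : ZMod p ≃ ZMod p) : F ≃ Bool × ZMod p :=
  l.trans ((Equiv.refl Bool).prodShear (fun b => if b then π.symm else Equiv.refl _))

lemma el_relabel_false (l : F ≃ Bool × ZMod p) (π : ZMod p ≃ ZMod p) (j : ZMod p) :
    el (relabel l π) false j = el l false j := by
  simp [el, relabel, Equiv.prodShear]

lemma el_relabel_true (l : F ≃ Bool × ZMod p) (π : ZMod p ≃ ZMod p) (j : ZMod p) :
    el (relabel l π) true j = el l true (π j) := by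
  simp [el, relabel, Equiv.prodShear]

/-- The hit lemma: if `ψ` is of type L and `ρ` of type M, then either some labelling has `CondA`
or some antipodal pair of `ρ` is not constant under `ψ`. -/
theorem hit {ρ ψ : AddChar (Fin d → ℤ) ℂ} (hρ : TypeM F ρ) {l : F ≃ Bool × ZMod p} (hψ : TypeL l ψ)
    (hno : ∀ l' : F ≃ Bool × ZMod p, ¬ CondA l') :
    ∃ f ∈ F, ∃ f' ∈ F, ρ (f' - f) = -1 ∧ ψ (f' - f) ≠ 1 := by
  by_contra hcon
  push Not at hcon
  have hcon' : ∀ f ∈ F, ∀ f' ∈ F, ρ (f' : Fin d → ℤ) = - ρ f → ψ f' = ψ f := by
    intro f hf f' hf' h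
    have h1 : ρ (f' - f) = -1 := by
      rw [char_sub, h]
      have := char_ne_zero ρ f
      field_simp
    have h2 := hcon f hf f' hf' h1
    rw [char_sub] at h2
    have h3 := char_ne_zero ψ f
    field_simp at h2
    exact h2
  obtain ⟨t, ht⟩ := hψ
  choose partner hpartner using fun f : F => typeM_partner hρ f
  have hval : ∀ f : F, ψ (partner f : Fin d → ℤ) = ψ (f : Fin d → ℤ) := fun f =>
    hcon' f f.2 (partner f) (partner f).2 (hpartner f)
  have hne : ∀ f : F, partner f ≠ f := by
    intro f h
    have := hpartner f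
    rw [h] at this
    have h0 := char_ne_zero ρ (f : Fin d → ℤ)
    have h2 : (2 : ℂ) * ρ (f : Fin d → ℤ) = 0 := by linear_combination this
    simp [h0] at h2
  -- partner of a false element is a true element
  have hside : ∀ j : ZMod p, (l (partner (l.symm (false, j)))).1 = true := by
    intro j
    by_contra hb
    have hb' : (l (partner (l.symm (false, j)))).1 = false := by simpa using hb
    have h1 := hval (l.symm (false, j))
    rw [ht (partner _), ht (l.symm (false, j))] at h1
    simp only [Equiv.apply_symm_apply, hb'] at h1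
    have h0 := typeL_t_ne ht false
    have h2 := mul_left_cancel₀ h0 h1
    have h3 := zeta_pow_inj h2
    apply hne (l.symm (false, j))
    apply l.injective
    rw [Equiv.apply_symm_apply]
    exact Prod.ext hb' h3
  let π0 : ZMod p → ZMod p := fun j => (l (partner (l.symm (false, j)))).2
  have hπ : ∀ j, l (partner (l.symm (false, j))) = (true, π0 j) := fun j =>
    Prod.ext (hside j) rfl
  have hπinj : Function.Injective π0 := by
    intro j j' hjj
    have h1 : partner (l.symm (false, j)) = partner (l.symm (false, j')) := by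
      apply l.injective
      rw [hπ, hπ, hjj]
    have h2 := hval (l.symm (false, j))
    have h3 := hval (l.symm (false, j'))
    rw [h1, h3, ht, ht] at h2
    simp only [Equiv.apply_symm_apply] at h2
    have h0 := typeL_t_ne ht false
    have h4 := mul_left_cancel₀ h0 h2
    exact (zeta_pow_inj h4).symm
  haveI : NeZero p := ⟨(Fact.out : p.Prime).ne_zero⟩
  haveI : Finite (ZMod p) := inferInstance
  have hπbij : Function.Bijective π0 := Finite.injective_iff_bijective.mp hπinj
  let π : ZMod p ≃ ZMod p := Equiv.ofBijective π0 hπbij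
  have hπeq : ∀ j, π j = π0 j := fun j => rfl
  set l' := relabel l π with hl'
  -- values in the new labelling
  have hpart_el : ∀ j, el l true (π j) = (partner (l.symm (false, j)) : Fin d → ℤ) := by
    intro j
    have h1 : l.symm (true, π j) = partner (l.symm (false, j)) := by
      rw [Equiv.symm_apply_eq, hπ, hπeq]
    simp [el, h1]
  have hρ_el : ∀ j, ρ (el l' true j) = - ρ (el l' false j) := by
    intro j
    rw [hl', el_relabel_true, el_relabel_false, hpart_el]
    exact hpartner _
  have hψ_el : ∀ b j, ψ (el l' b j) = t false * zetaP p ^ j.val := by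
    intro b j
    cases b
    · rw [hl', el_relabel_false]
      exact typeL_el ht false j
    · rw [hl', el_relabel_true, hpart_el, hval]
      have := typeL_el ht false j
      simpa [el] using this
  have hρ_a : ρ (aV l') = -1 := by
    rw [aV, char_sub, hρ_el]
    have := char_ne_zero ρ (el l' false 0)
    field_simp
  have h0t := typeL_t_ne ht false
  have hz := zeta_ne_zero (p := p)
  have hψ_e : ψ (eV l') = zetaP p := by
    rw [eV, char_sub, hψ_el, hψ_el, val_one_eq, ZMod.val_zero, pow_zero, pow_one, mul_one]
    field_simp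
  refine hno l' ⟨?_, ?_⟩
  · have hle : R1A l' ≤ kerChar ρ := by
      rw [R1A, AddSubgroup.closure_le]
      rintro x (⟨j, rfl⟩ | rfl)
      · change ρ _ = 1
        rw [char_sub, char_sub, hρ_a, hρ_el]
        have := char_ne_zero ρ (el l' false j)
        field_simp
      · change ρ _ = 1
        rw [AddChar.map_nsmul_eq_pow, hρ_a]
        norm_num
    intro hmem
    have h1 := hle hmem
    rw [mem_kerChar, hρ_a] at h1
    norm_num at h1
  · have hle : R2A l' ≤ kerChar ψ := by
      rw [R2A, AddSubgroup.closure_le]
      rintro x (⟨b, j, rfl⟩ | rfl)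
      · change ψ _ = 1
        rw [char_sub, char_sub, AddChar.map_nsmul_eq_pow, hψ_e, hψ_el, hψ_el, ZMod.val_zero,
          pow_zero, mul_one]
        have : zetaP p ^ j.val ≠ 0 := pow_ne_zero _ hz
        field_simp
      · change ψ _ = 1
        rw [AddChar.map_nsmul_eq_pow, hψ_e, zeta_pow_p]
    intro hmem
    have h1 := hle hmem
    rw [mem_kerChar, hψ_e] at h1
    exact zeta_ne_one h1

end P043
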