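import Vale.Agent.Lib.P043.Defs

open scoped BigOperators

namespace P043

/-- A transversal of a subgroup. -/
theorem m1_transversal {Γ : Type*} [AddCommGroup Γ] (H : AddSubgroup Γ) :
    ∃ B : Set Γ, ∀ y : Γ, ∃! h : H, y - (h : Γ) ∈ B := by
  refine ⟨Set.range (Quotient.out : Γ ⧸ H → Γ), fun y => ?_⟩
  have hmk : ∀ q : Γ ⧸ H, (QuotientAddGroup.mk (Quotient.out q) : Γ ⧸ H) = q :=
    fun q => Quotient.out_eq q
  set z := Quotient.out (QuotientAddGroup.mk y : Γ ⧸ H) with hz
  have hzy : (QuotientAddGroup.mk z : Γ ⧸ H) = QuotientAddGroup.mk y := hmk _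
  have hmem : y - z ∈ H := by
    have := QuotientAddGroup.eq.1 hzy
    have h2 : y - z = -z + y := by abel
    rwa [h2]
  refine ⟨⟨y - z, hmem⟩, ?_, ?_⟩
  · refine ⟨QuotientAddGroup.mk y, ?_⟩
    simp only
    abel_nf
    rw [hz]
  · rintro ⟨h, hh⟩ ⟨q, hq⟩
    simp only at hq
    have hqq : q = QuotientAddGroup.mk y := by
      rw [← hmk q, hq]
      refine QuotientAddGroup.eq.2 ?_
      have h3 : -(y - h) + y = h := by abel
      rwa [h3]
    subst hqq
    apply Subtype.ext
    simp only
    have h4 : y - h = z := hq.symm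
    rw [← h4]
    abel

/-- The two element parametrisation. -/
theorem m1_bool {Γ : Type*} [AddCommGroup Γ] (ι : Γ) (hι0 : ι ≠ 0) (hι2 : ι + ι = 0) :
    ∃ B : Set Γ, ∀ y : Γ, ∃! b : Bool, y - (if b then ι else 0) ∈ B := by
  obtain ⟨B, hB⟩ := m1_transversal (AddSubgroup.zmultiples ι)
  refine ⟨B, fun y => ?_⟩
  obtain ⟨⟨h, hh⟩, h1, h2⟩ := hB y
  obtain ⟨n, rfl⟩ := AddSubgroup.mem_zmultiples_iff.1 hh
  have h2nι : ∀ n : ℤ, n • ι = if Even n then 0 else ι := by
    intro n
    split_ifs with hn
    · obtain ⟨k, rfl⟩ := hn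
      rw [add_zsmul, ← smul_add, hι2, smul_zero]
    · obtain ⟨k, rfl⟩ := Int.not_even_iff_odd.1 hn
      have h3 : (2 * k + 1) • ι = k • (ι + ι) + ι := by
        rw [add_zsmul, one_zsmul, smul_add, ← add_zsmul, two_mul]
      rw [h3, hι2, smul_zero, zero_add]
  have hb : ∀ b : Bool, (if b then ι else 0) ∈ AddSubgroup.zmultiples ι := by
    intro b
    cases b
    · simp
    · simpa using AddSubgroup.mem_zmultiples ι
  refine ⟨!decide (Even n), ?_, ?_⟩
  · simp only at h1
    rw [h2nι n] at h1
    by_cases hn : Even n <;> simpa [hn] using h1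
  · intro b hbB
    have := h2 ⟨_, hb b⟩ hbB
    have hval := congrArg Subtype.val this
    simp only at hval
    rw [h2nι n] at hval
    by_cases hn : Even n
    · simp only [hn, if_true] at hval
      cases b
      · simp [hn]
      · exact absurd (by simpa using hval) hι0
    · simp only [hn, if_false] at hval
      cases b
      · exact absurd (by simpa using hval.symm) hι0
      · simp [hn]

/-- The `ZMod p` parametrisation. -/
theorem m1_zmod {Γ : Type*} [AddCommGroup Γ] {p : ℕ} [NeZero p] (η : Γ) (hη : addOrderOf η = p) :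
    ∃ B : Set Γ, ∀ y : Γ, ∃! j : ZMod p, y - j.val • η ∈ B := by
  obtain ⟨B, hB⟩ := m1_transversal (AddSubgroup.zmultiples η)
  refine ⟨B, fun y => ?_⟩
  obtain ⟨⟨h, hh⟩, h1, h2⟩ := hB y
  obtain ⟨n, rfl⟩ := AddSubgroup.mem_zmultiples_iff.1 hh
  have hmem : ∀ j : ZMod p, j.val • η ∈ AddSubgroup.zmultiples η := fun j =>
    nsmul_mem (AddSubgroup.mem_zmultiples η) _
  have hval : ((n : ZMod p).val : ℤ) ≡ n [ZMOD p] := by
    apply (ZMod.intCast_eq_intCast_iff _ _ p).1
    simp
  have hsm : (n : ZMod p).val • η = n • η := by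
    have h3 : ((n : ZMod p).val : ℤ) • η = n • η := by
      exact zsmul_eq_zsmul_iff_modEq.2 (by rw [hη]; exact hval)
    rw [← h3, natCast_zsmul]
  refine ⟨(n : ZMod p), ?_, ?_⟩
  · simp only at h1
    simp only
    rw [hsm]
    exact h1
  · intro j hj
    have := h2 ⟨_, hmem j⟩ hj
    have hv := congrArg Subtype.val this
    simp only at hv
    rw [← hsm] at hv
    have hinj := nsmul_injOn_Iio_addOrderOf (x := η)
    have hj1 : j.val ∈ Set.Iio (addOrderOf η) := by rw [hη]; exact ZMod.val_lt j
    have hj2 : (n : ZMod p).val ∈ Set.Iio (addOrderOf η) := by rw [hη]; exact ZMod.val_lt _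
    have := hinj hj1 hj2 hv
    exact ZMod.val_injective p this

/-- M1. Tile from two characters.  (Transversals of `Γ₁/{0,ι}`, `Γ₂/⟨η⟩`.) -/
theorem tile_of_structure {G Γ₁ Γ₂ : Type*} [AddCommGroup G] [AddCommGroup Γ₁] [AddCommGroup Γ₂]
    (χ₁ : G →+ Γ₁) (χ₂ : G →+ Γ₂) (h₁ : (Set.range χ₁).Finite) (h₂ : (Set.range χ₂).Finite)
    {p : ℕ} [NeZero p] (ι : Γ₁) (hι0 : ι ≠ 0) (hι2 : ι + ι = 0) (η : Γ₂) (hη : addOrderOf η = p)
    (F : Finset G) (l : F ≃ Bool × ZMod p)
    (h : (∃ (a : ZMod p → Γ₁) (t : Γ₂), ∀ f : F,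
            χ₁ f = a (l f).2 + (if (l f).1 then ι else 0) ∧ χ₂ f = t + (l f).2.val • η) ∨
         (∃ (a : Γ₁) (t : Bool → Γ₂), ∀ f : F,
            χ₁ f = a + (if (l f).1 then ι else 0) ∧ χ₂ f = t (l f).1 + (l f).2.val • η)) :
    ∃ A : Set G, IsTiling A F ∧ IsPeriodic A := by
  obtain ⟨B₁, hB₁⟩ := m1_bool ι hι0 hι2
  obtain ⟨B₂, hB₂⟩ := m1_zmod (p := p) η hη
  refine ⟨{x | χ₁ x ∈ B₁ ∧ χ₂ x ∈ B₂}, ?_, ?_⟩
  · -- tiling: exactly one f
    have key : ∀ x : G, ∃! f : F, χ₁ (x - f) ∈ B₁ ∧ χ₂ (x - f) ∈ B₂ := by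
      intro x
      rcases h with ⟨a, t, hf⟩ | ⟨a, t, hf⟩
      · obtain ⟨j, hj, hju⟩ := hB₂ (χ₂ x - t)
        obtain ⟨b, hb, hbu⟩ := hB₁ (χ₁ x - a j)
        refine ⟨l.symm (b, j), ?_, ?_⟩
        · have h1 := hf (l.symm (b, j))
          simp only [Equiv.apply_symm_apply] at h1
          simp only [map_sub, h1.1, h1.2]
          constructor
          · have : χ₁ x - (a j + if b = true then ι else 0) =
                χ₁ x - a j - if b = true then ι else 0 := by abel
            rw [this]; exact hb
          · have : χ₂ x - (t + j.val • η) = χ₂ x - t - j.val • η := by abel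
            rw [this]; exact hj
        · rintro f ⟨hf1, hf2⟩
          have h1 := hf f
          simp only [map_sub, h1.1, h1.2] at hf1 hf2
          have hj' : (l f).2 = j := by
            have h3 : χ₂ x - t - (l f).2.val • η ∈ B₂ := by
              have : χ₂ x - t - (l f).2.val • η = χ₂ x - (t + (l f).2.val • η) := by abel
              rw [this]; exact hf2
            exact hju _ h3
          have hb' : (l f).1 = b := by
            have h3 : χ₁ x - a j - (if (l f).1 = true then ι else 0) ∈ B₁ := by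
              have : χ₁ x - a j - (if (l f).1 = true then ι else 0) =
                  χ₁ x - (a (l f).2 + if (l f).1 = true then ι else 0) := by rw [hj']; abel
              rw [this]; exact hf1
            exact hbu _ h3
          apply l.injective
          rw [Equiv.apply_symm_apply]
          exact Prod.ext hb' hj'
      · obtain ⟨b, hb, hbu⟩ := hB₁ (χ₁ x - a)
        obtain ⟨j, hj, hju⟩ := hB₂ (χ₂ x - t b)
        refine ⟨l.symm (b, j), ?_, ?_⟩
        · have h1 := hf (l.symm (b, j))
          simp only [Equiv.apply_symm_apply] at h1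
          simp only [map_sub, h1.1, h1.2]
          constructor
          · have : χ₁ x - (a + if b = true then ι else 0) =
                χ₁ x - a - if b = true then ι else 0 := by abel
            rw [this]; exact hb
          · have : χ₂ x - (t b + j.val • η) = χ₂ x - t b - j.val • η := by abel
            rw [this]; exact hj
        · rintro f ⟨hf1, hf2⟩
          have h1 := hf f
          simp only [map_sub, h1.1, h1.2] at hf1 hf2
          have hb' : (l f).1 = b := by
            have h3 : χ₁ x - a - (if (l f).1 = true then ι else 0) ∈ B₁ := by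
              have : χ₁ x - a - (if (l f).1 = true then ι else 0) =
                  χ₁ x - (a + if (l f).1 = true then ι else 0) := by abel
              rw [this]; exact hf1
            exact hbu _ h3
          have hj' : (l f).2 = j := by
            have h3 : χ₂ x - t b - (l f).2.val • η ∈ B₂ := by
              have : χ₂ x - t b - (l f).2.val • η = χ₂ x - (t (l f).1 + (l f).2.val • η) := by
                rw [hb']; abel
              rw [this]; exact hf2
            exact hju _ h3
          apply l.injective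
          rw [Equiv.apply_symm_apply]
          exact Prod.ext hb' hj'
    intro x
    obtain ⟨f, hf, hfu⟩ := key x
    refine ⟨(x - f, f), ⟨hf, f.2, by simp⟩, ?_⟩
    rintro ⟨a', f'⟩ ⟨ha', hf', hsum⟩
    simp only at ha' hf' hsum
    have hx : x - f' = a' := by rw [← hsum]; abel
    have : (⟨f', hf'⟩ : F) = f := hfu _ (by
      simp only [hx]
      exact ha')
    have hff : f' = (f : G) := congrArg Subtype.val this
    subst hff
    simp [hx]
  · have hfi1 : (χ₁.ker).FiniteIndex := by
      have : Finite χ₁.range := by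
        have : (χ₁.range : Set Γ₁) = Set.range χ₁ := by ext; simp
        exact (this ▸ h₁).to_subtype
      exact AddSubgroup.finiteIndex_ker χ₁
    have hfi2 : (χ₂.ker).FiniteIndex := by
      have : Finite χ₂.range := by
        have : (χ₂.range : Set Γ₂) = Set.range χ₂ := by ext; simp
        exact (this ▸ h₂).to_subtype
      exact AddSubgroup.finiteIndex_ker χ₂
    refine ⟨χ₁.ker ⊓ χ₂.ker, inferInstance, ?_⟩
    rintro g ⟨hg1, hg2⟩ x
    have hg1' : χ₁ g = 0 := hg1
    have hg2' : χ₂ g = 0 := hg2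
    simp [hg1', hg2']

end P043
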