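import Vale.Agent.Lib.P043.Defs

open scoped BigOperators

namespace P043

theorem m1b_torsion (q : AddCircle (1 : ℚ)) : ∃ n : ℕ, 0 < n ∧ n • q = 0 := by
  induction q using QuotientAddGroup.induction_on with
  | H x =>
    refine ⟨x.den, x.den_pos, ?_⟩
    rw [← QuotientAddGroup.mk_nsmul, QuotientAddGroup.eq_zero_iff]
    refine AddSubgroup.mem_zmultiples_iff.2 ⟨x.num, ?_⟩
    rw [zsmul_eq_mul, mul_one, nsmul_eq_mul]
    exact_mod_cast (Rat.den_mul_eq_num x).symm

/-- M1b. Finite-order character separating `e` from `R` (quotient + character module + FG torsion). -/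
theorem exists_char_of_not_mem {d : ℕ} (R : AddSubgroup (Fin d → ℤ)) (e : Fin d → ℤ) (he : e ∉ R)
    {N : ℕ} (hN : N ≠ 0) (hNe : N • e ∈ R) :
    ∃ χ : (Fin d → ℤ) →+ AddCircle (1 : ℚ), (Set.range χ).Finite ∧ (∀ r ∈ R, χ r = 0) ∧ χ e ≠ 0 := by
  have hne : (QuotientAddGroup.mk e : (Fin d → ℤ) ⧸ R) ≠ 0 := by
    rwa [Ne, QuotientAddGroup.eq_zero_iff]
  obtain ⟨c, hc⟩ := CharacterModule.exists_character_apply_ne_zero_of_ne_zero hne
  let χ : (Fin d → ℤ) →+ AddCircle (1 : ℚ) :=
    (show ((Fin d → ℤ) ⧸ R) →+ AddCircle (1 : ℚ) from c).comp (QuotientAddGroup.mk' R)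
  refine ⟨χ, ?_, ?_, hc⟩
  · have hfg : AddGroup.FG (Fin d → ℤ) := by
      have : Module.Finite ℤ (Fin d → ℤ) := inferInstance
      exact (Module.Finite.iff_addGroup_fg.1 this)
    have hfgr : AddGroup.FG χ.range := AddGroup.fg_range χ
    have htors : AddMonoid.IsTorsion χ.range := by
      intro y
      obtain ⟨n, hn, hy⟩ := m1b_torsion (y : AddCircle (1 : ℚ))
      refine isOfFinAddOrder_iff_nsmul_eq_zero.2 ⟨n, hn, ?_⟩
      ext
      simpa using hy
    have hfin : Finite χ.range := AddCommGroup.finite_of_fg_torsion _ htors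
    have : Set.range χ = (χ.range : Set (AddCircle (1 : ℚ))) := by
      ext y; simp
    rw [this]
    exact Set.toFinite _
  · intro r hr
    have h0 : (QuotientAddGroup.mk' R) r = 0 := by
      rw [QuotientAddGroup.mk'_apply, QuotientAddGroup.eq_zero_iff]
      exact hr
    change (show ((Fin d → ℤ) ⧸ R) →+ AddCircle (1 : ℚ) from c) ((QuotientAddGroup.mk' R) r) = 0
    rw [h0, map_zero]

end P043
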