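import Vale.Agent.Lib.P043.Defs

/-! # P043 module M2: structure of vanishing sums of `2p` nonzero complex numbers -/

open scoped BigOperators
open Classical

namespace P043

open Finset Polynomial in
/-- Vandermonde step. -/
private theorem m2_class {ι : Type*} [Fintype ι] (a b : ι → ℂ)
    (h : ∀ k : ℕ, ∑ i, a i ^ k * b i = 0) (y : ℂ) :
    ∑ i ∈ univ.filter (fun i => a i = y), b i = 0 := by
  set Y := (univ.image a).erase y with hY
  set P : ℂ[X] := ∏ y' ∈ Y, (X - C y') with hP
  have hPy : P.eval y ≠ 0 := by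
    rw [hP, eval_prod]
    refine prod_ne_zero_iff.mpr ?_
    intro y' hy'
    have h1 : y' ≠ y := (mem_erase.mp hy').1
    simp [sub_ne_zero, h1.symm]
  have hPo : ∀ i, a i ≠ y → P.eval (a i) = 0 := by
    intro i hi
    rw [hP, eval_prod]
    apply prod_eq_zero (i := a i)
    · exact mem_erase.mpr ⟨hi, mem_image_of_mem _ (mem_univ i)⟩
    · simp
  have hsum : ∑ i, P.eval (a i) * b i = 0 := by
    have h1 : ∀ i, P.eval (a i) * b i =
        ∑ k ∈ range (P.natDegree + 1), P.coeff k * (a i ^ k * b i) := by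
      intro i
      rw [eval_eq_sum_range, sum_mul]
      exact sum_congr rfl fun k _ => by ring
    simp_rw [h1]
    rw [sum_comm]
    refine sum_eq_zero fun k _ => ?_
    rw [← mul_sum, h k, mul_zero]
  have hsplit : ∑ i, P.eval (a i) * b i =
      P.eval y * ∑ i ∈ univ.filter (fun i => a i = y), b i := by
    rw [mul_sum, sum_filter]
    refine sum_congr rfl fun i _ => ?_
    by_cases hi : a i = y
    · rw [if_pos hi, hi]
    · rw [if_neg hi, hPo i hi, zero_mul]
  rw [hsplit] at hsum
  exact (mul_eq_zero.mp hsum).resolve_left hPy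

open Finset Polynomial in
/-- An integer relation among `1, ζ, …, ζ^(p-1)` has all coefficients equal. -/
private theorem m2_rel {p : ℕ} (hp : p.Prime) (hp3 : 3 ≤ p) {ζ : ℂ} (hζ : IsPrimitiveRoot ζ p)
    (D : ℕ → ℤ) (h : ∑ j ∈ range p, (D j : ℂ) * ζ ^ j = 0) : ∀ j < p, D j = D (p - 1) := by
  have : Fact p.Prime := ⟨hp⟩
  set Q : ℤ[X] := ∑ j ∈ range p, C (D j) * X ^ j with hQdef
  have hQ : aeval ζ Q = 0 := by
    rw [hQdef, map_sum, ← h]
    refine sum_congr rfl fun j _ => ?_
    simp
  have hint : IsIntegral ℤ ζ := hζ.isIntegral hp.pos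
  have hdvd : minpoly ℤ ζ ∣ Q := minpoly.isIntegrallyClosed_dvd hint hQ
  rw [← Polynomial.cyclotomic_eq_minpoly hζ hp.pos] at hdvd
  have hΦ : cyclotomic p ℤ = ∑ j ∈ range p, (X : ℤ[X]) ^ j := cyclotomic_prime ℤ p
  set T : ℤ[X] := Q - C (D (p - 1)) * cyclotomic p ℤ with hTdef
  have hT : cyclotomic p ℤ ∣ T := dvd_sub hdvd (dvd_mul_left _ _)
  have hTsum : T = ∑ j ∈ range p, C (D j - D (p - 1)) * X ^ j := by
    rw [hTdef, hΦ, hQdef, mul_sum, ← sum_sub_distrib]
    refine sum_congr rfl fun j _ => ?_
    rw [C_sub, sub_mul]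
  have hcoeff : ∀ j < p, T.coeff j = D j - D (p - 1) := by
    intro j hj
    rw [hTsum, finsetSum_coeff]
    simp only [coeff_C_mul, coeff_X_pow]
    rw [sum_eq_single j]
    · simp
    · intro b _ hb
      simp [Ne.symm hb]
    · intro hj'
      exact absurd (mem_range.mpr hj) hj'
  have hdeg : T.natDegree < (cyclotomic p ℤ).natDegree := by
    rw [natDegree_cyclotomic, Nat.totient_prime hp]
    have h1 : T.natDegree ≤ p - 2 := by
      rw [natDegree_le_iff_coeff_eq_zero]
      intro N hN
      by_cases hNp : N < p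
      · have : N = p - 1 := by omega
        rw [hcoeff N hNp, this, sub_self]
      · rw [hTsum, finsetSum_coeff]
        refine sum_eq_zero fun j hj => ?_
        have hj' : j < p := mem_range.mp hj
        simp only [coeff_C_mul, coeff_X_pow]
        rw [if_neg (by omega), mul_zero]
    omega
  have T0 : T = 0 := eq_zero_of_dvd_of_natDegree_lt hT hdeg
  intro j hj
  have := hcoeff j hj
  rw [T0, coeff_zero] at this
  linarith

open Finset in
/-- Classification of the elements with a given `2p`-th power. -/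
private theorem m2_fiber {p : ℕ} (hp : p.Prime) (hodd : Odd p) {ζ : ℂ}
    (hζ : IsPrimitiveRoot ζ p) {ι : Type*} [Fintype ι] (w : ι → ℂ) {R : Type*} [AddCommMonoid R]
    (f : ℂ → R) {t : ℂ} (ht : t ≠ 0) :
    ∑ i ∈ univ.filter (fun i => w i ^ (2 * p) = t ^ (2 * p)), f (w i) =
      ∑ j ∈ range p, ((univ.filter (fun i => w i = t * ζ ^ j)).card • f (t * ζ ^ j) +
        (univ.filter (fun i => w i = -(t * ζ ^ j))).card • f (-(t * ζ ^ j))) := by
  have : NeZero p := ⟨hp.ne_zero⟩
  have hzp : ζ ^ p = 1 := hζ.pow_eq_one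
  have hpow1 : ∀ j, (t * ζ ^ j) ^ (2 * p) = t ^ (2 * p) := by
    intro j
    have h0 : (ζ ^ j) ^ (2 * p) = 1 := by
      rw [← pow_mul, show j * (2 * p) = p * (2 * j) by ring, pow_mul, hzp, one_pow]
    rw [mul_pow, h0, mul_one]
  have hpow2 : ∀ j, (-(t * ζ ^ j)) ^ (2 * p) = t ^ (2 * p) := by
    intro j
    rw [Even.neg_pow (even_two_mul p), hpow1]
  have inj1 : Set.InjOn (fun j => t * ζ ^ j) (range p : Set ℕ) := by
    intro a ha b hb hab
    have h1 : ζ ^ a = ζ ^ b := mul_left_cancel₀ ht hab
    exact hζ.pow_inj (mem_range.mp ha) (mem_range.mp hb) h1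
  have inj2 : Set.InjOn (fun j => -(t * ζ ^ j)) (range p : Set ℕ) := by
    intro a ha b hb hab
    exact inj1 ha hb (neg_injective hab)
  set V1 := (range p).image (fun j => t * ζ ^ j) with hV1
  set V2 := (range p).image (fun j => -(t * ζ ^ j)) with hV2
  have hdisj : Disjoint V1 V2 := by
    rw [Finset.disjoint_left]
    intro c hc1 hc2
    obtain ⟨a, _, rfl⟩ := mem_image.mp hc1
    obtain ⟨b, _, hb⟩ := mem_image.mp hc2
    have h1 : -(ζ ^ b) = ζ ^ a := by
      apply mul_left_cancel₀ ht
      rw [mul_neg]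
      exact hb
    have h2 : (-(ζ ^ b)) ^ p = (ζ ^ a) ^ p := by rw [h1]
    rw [hodd.neg_pow, ← pow_mul, ← pow_mul, mul_comm b, mul_comm a, pow_mul, pow_mul, hzp] at h2
    simp only [one_pow] at h2
    norm_num at h2
  have hmaps : ∀ i ∈ univ.filter (fun i => w i ^ (2 * p) = t ^ (2 * p)), w i ∈ V1 ∪ V2 := by
    intro i hi
    have hi' := (mem_filter.mp hi).2
    set ρ := w i / t with hρ
    have hρ1 : ρ ^ (2 * p) = 1 := by
      rw [hρ, div_pow, hi', div_self (pow_ne_zero _ ht)]
    have hwi : w i = t * ρ := by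
      rw [hρ]
      field_simp
    have hρ2 : (ρ ^ p) ^ 2 = 1 := by
      rw [← pow_mul, mul_comm]
      exact hρ1
    have hρ3 : ρ ^ p * ρ ^ p = 1 := by rw [← sq]; exact hρ2
    rcases mul_self_eq_one_iff.mp hρ3 with h | h
    · obtain ⟨k, hk, hk2⟩ := hζ.eq_pow_of_pow_eq_one h
      refine mem_union_left _ (mem_image.mpr ⟨k, mem_range.mpr hk, ?_⟩)
      show t * ζ ^ k = w i
      rw [hk2, hwi]
    · have h' : (-ρ) ^ p = 1 := by
        rw [hodd.neg_pow, h, neg_neg]
      obtain ⟨k, hk, hk2⟩ := hζ.eq_pow_of_pow_eq_one h'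
      refine mem_union_right _ (mem_image.mpr ⟨k, mem_range.mpr hk, ?_⟩)
      show -(t * ζ ^ k) = w i
      rw [hk2, hwi]
      ring
  rw [← sum_fiberwise_of_maps_to hmaps, sum_union hdisj, hV1, hV2, sum_image inj1, sum_image inj2,
    ← sum_add_distrib]
  refine sum_congr rfl fun j _ => ?_
  congr 1
  · rw [filter_filter]
    have h1 : (univ.filter fun i => w i ^ (2 * p) = t ^ (2 * p) ∧ w i = t * ζ ^ j) =
        univ.filter fun i => w i = t * ζ ^ j := by
      ext i
      simp only [mem_filter, mem_univ, true_and]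
      constructor
      · exact fun h => h.2
      · intro h
        exact ⟨by rw [h, hpow1], h⟩
    rw [h1, sum_congr rfl (g := fun _ => f (t * ζ ^ j))
      (fun i hi => by rw [(mem_filter.mp hi).2]), sum_const]
  · rw [filter_filter]
    have h1 : (univ.filter fun i => w i ^ (2 * p) = t ^ (2 * p) ∧ w i = -(t * ζ ^ j)) =
        univ.filter fun i => w i = -(t * ζ ^ j) := by
      ext i
      simp only [mem_filter, mem_univ, true_and]
      constructor
      · exact fun h => h.2
      · intro h
        exact ⟨by rw [h, hpow2], h⟩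
    rw [h1, sum_congr rfl (g := fun _ => f (-(t * ζ ^ j)))
      (fun i hi => by rw [(mem_filter.mp hi).2]), sum_const]

/-- M2. Structure of vanishing sums. -/
theorem vanishing_structure {p : ℕ} (hp : p.Prime) (hp2 : p ≠ 2) {ι : Type*} [Fintype ι]
    (hcard : Fintype.card ι = 2 * p) (w : ι → ℂ) (hw : ∀ i, w i ≠ 0)
    (hz : ∀ k : ℕ, ∑ i, w i ^ (2 * p * k + 1) = 0) :
    (∀ c : ℂ, (Finset.univ.filter (fun i => w i = c)).card =
        (Finset.univ.filter (fun i => w i = -c)).card) ∨
    (∃ (l : ι ≃ Bool × ZMod p) (t : Bool → ℂ), ∀ i,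
        w i = t (l i).1 * Complex.exp (2 * Real.pi * Complex.I / p) ^ (l i).2.val) := by
  open Finset in
  have hodd : Odd p := hp.odd_of_ne_two hp2
  have hp3 : 3 ≤ p := by
    have := hp.two_le
    omega
  have : NeZero p := ⟨hp.ne_zero⟩
  set ζ : ℂ := Complex.exp (2 * Real.pi * Complex.I / p) with hζdef
  have hζ : IsPrimitiveRoot ζ p := Complex.isPrimitiveRoot_exp p hp.ne_zero
  have hζ0 : ζ ≠ 0 := hζ.ne_zero hp.ne_zero
  let n : ℂ → ℕ := fun c => (Finset.univ.filter (fun i => w i = c)).card
  let D : ℂ → ℤ := fun c => (n c : ℤ) - n (-c)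
  have hDneg : ∀ c, D (-c) = - D c := by
    intro c
    simp only [D, neg_neg]
    ring
  have hnD : ∀ c, D c ≤ n c := by
    intro c
    simp only [D]
    have : (0 : ℤ) ≤ n (-c) := by positivity
    linarith
  -- the orbit relation
  have horbit : ∀ t : ℂ, t ≠ 0 → ∀ j < p, D (t * ζ ^ j) = D t := by
    intro t ht
    have h1 := m2_class (fun i => w i ^ (2 * p)) w (fun k => by
      rw [← hz k]
      refine Finset.sum_congr rfl fun i _ => ?_
      rw [← pow_mul, pow_succ]) (t ^ (2 * p))
    have h2 := m2_fiber hp hodd hζ w (fun c => c) ht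
    rw [h2] at h1
    have h3 : t * ∑ j ∈ Finset.range p, ((D (t * ζ ^ j) : ℤ) : ℂ) * ζ ^ j = 0 := by
      rw [← h1, Finset.mul_sum]
      refine Finset.sum_congr rfl fun j _ => ?_
      simp only [D, n, nsmul_eq_mul]
      push_cast
      ring
    have h4 := (mul_eq_zero.mp h3).resolve_left ht
    have h5 := m2_rel hp hp3 hζ (fun j => D (t * ζ ^ j)) h4
    intro j hj
    have h6 := h5 j hj
    have h7 := h5 0 (by omega)
    simp only [pow_zero, mul_one] at h7
    exact h6.trans h7.symm
  -- building the equivalence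
  have finish : ∀ (t : Bool → ℂ) (g : Bool × ZMod p → ι), Function.Injective g →
      (∀ x, w (g x) = t x.1 * ζ ^ x.2.val) →
      ∃ (l : ι ≃ Bool × ZMod p) (t : Bool → ℂ), ∀ i, w i = t (l i).1 * ζ ^ (l i).2.val := by
    intro t g hg hgw
    have hc : Fintype.card (Bool × ZMod p) = Fintype.card ι := by
      rw [Fintype.card_prod, Fintype.card_bool, ZMod.card, hcard]
    have hb : Function.Bijective g := (Fintype.bijective_iff_injective_and_card g).mpr ⟨hg, hc⟩
    let e := Equiv.ofBijective g hb
    refine ⟨e.symm, t, fun i => ?_⟩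
    have h1 : g (e.symm i) = i := e.apply_symm_apply i
    have h2 := hgw (e.symm i)
    rw [h1] at h2
    exact h2
  have hpowinj : ∀ (c : ℂ), c ≠ 0 → ∀ a b : ZMod p, c * ζ ^ a.val = c * ζ ^ b.val → a = b := by
    intro c hc a b hab
    have h1 : ζ ^ a.val = ζ ^ b.val := mul_left_cancel₀ hc hab
    exact ZMod.val_injective p (hζ.pow_inj (ZMod.val_lt a) (ZMod.val_lt b) h1)
  have hpow2p : ∀ (c : ℂ) (j : ℕ), (c * ζ ^ j) ^ (2 * p) = c ^ (2 * p) := by
    intro c j
    have h0 : (ζ ^ j) ^ (2 * p) = 1 := by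
      rw [← pow_mul, show j * (2 * p) = p * (2 * j) by ring, pow_mul, hζ.pow_eq_one, one_pow]
    rw [mul_pow, h0, mul_one]
  by_cases hall : ∀ c : ℂ, n c = n (-c)
  · exact Or.inl hall
  right
  push Not at hall
  -- a point with positive defect
  obtain ⟨c0, hc0pos⟩ : ∃ c0, 0 < D c0 := by
    obtain ⟨c, hc⟩ := hall
    have hne : D c ≠ 0 := by
      simp only [D]
      intro h
      apply hc
      have : (n c : ℤ) = n (-c) := by linarith
      exact_mod_cast this
    rcases lt_or_gt_of_ne hne with h | h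
    · exact ⟨-c, by rw [hDneg]; omega⟩
    · exact ⟨c, h⟩
  have hposne : ∀ c, 0 < D c → c ≠ 0 := by
    rintro c hc rfl
    simp [D] at hc
  have hc00 := hposne c0 hc0pos
  by_cases h2 : 2 ≤ D c0
  · -- one orbit with multiplicity two
    have hex : ∀ j : ZMod p, ∃ a b : ι, a ≠ b ∧ w a = c0 * ζ ^ j.val ∧ w b = c0 * ζ ^ j.val := by
      intro j
      have h3 : (2 : ℤ) ≤ n (c0 * ζ ^ j.val) := by
        have h4 := hnD (c0 * ζ ^ j.val)
        rw [horbit c0 hc00 _ (ZMod.val_lt j)] at h4
        linarith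
      have h5 : 1 < (Finset.univ.filter (fun i => w i = c0 * ζ ^ j.val)).card := by
        have : (2 : ℕ) ≤ n (c0 * ζ ^ j.val) := by exact_mod_cast h3
        exact this
      obtain ⟨a, ha, b, hb, hab⟩ := Finset.one_lt_card.mp h5
      exact ⟨a, b, hab, (Finset.mem_filter.mp ha).2, (Finset.mem_filter.mp hb).2⟩
    choose a b hab ha hb using hex
    refine finish (fun _ => c0) (fun x => if x.1 then b x.2 else a x.2) ?_ ?_
    · rintro ⟨x1, x2⟩ ⟨y1, y2⟩ hxy
      cases x1 <;> cases y1 <;> simp only [Bool.false_eq_true, if_false, if_true] at hxy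
      · have h3 := congrArg w hxy
        rw [ha, ha] at h3
        rw [hpowinj c0 hc00 _ _ h3]
      · have h3 := congrArg w hxy
        rw [ha, hb] at h3
        have h4 := hpowinj c0 hc00 _ _ h3
        subst h4
        exact absurd hxy (hab _)
      · have h3 := congrArg w hxy
        rw [hb, ha] at h3
        have h4 := hpowinj c0 hc00 _ _ h3
        subst h4
        exact absurd hxy.symm (hab _)
      · have h3 := congrArg w hxy
        rw [hb, hb] at h3
        rw [hpowinj c0 hc00 _ _ h3]
    · rintro ⟨x1, x2⟩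
      cases x1
      · simp [ha]
      · simp [hb]
  · -- defect one: a second orbit exists by parity
    have hD1 : D c0 = 1 := by omega
    set C0 := Finset.univ.filter (fun i => w i ^ (2 * p) = c0 ^ (2 * p)) with hC0
    have hC0card : C0.card = ∑ j ∈ Finset.range p,
        (n (c0 * ζ ^ j) + n (-(c0 * ζ ^ j))) := by
      have h3 := m2_fiber hp hodd hζ w (fun _ => (1 : ℕ)) hc00
      simp only [smul_eq_mul, mul_one] at h3
      rw [Finset.card_eq_sum_ones, h3]
    have hC0odd : Odd C0.card := by
      have h3 : ∀ j ∈ Finset.range p, n (c0 * ζ ^ j) + n (-(c0 * ζ ^ j)) =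
          2 * n (-(c0 * ζ ^ j)) + 1 := by
        intro j hj
        have h4 := horbit c0 hc00 j (Finset.mem_range.mp hj)
        rw [hD1] at h4
        simp only [D] at h4
        omega
      rw [hC0card, Finset.sum_congr rfl h3, Finset.sum_add_distrib, ← Finset.mul_sum]
      simp only [Finset.sum_const, Finset.card_range, smul_eq_mul, mul_one]
      exact Even.add_odd (even_two_mul _) hodd
    set B := Finset.univ.filter (fun i => ¬ w i ^ (2 * p) = c0 ^ (2 * p)) with hB
    have hBcard : C0.card + B.card = 2 * p := by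
      rw [← hcard, ← Finset.card_univ, hC0, hB]
      exact Finset.card_filter_add_card_filter_not _
    have hBodd : Odd B.card := by
      have h3 : Even (C0.card + B.card) := by rw [hBcard]; exact even_two_mul p
      rcases Nat.even_or_odd B.card with h4 | h4
      · exact absurd (Nat.even_add.mp h3 |>.mpr h4) (Nat.not_even_iff_odd.mpr hC0odd)
      · exact h4
    obtain ⟨i1, hi1, hi1D⟩ : ∃ i1 ∈ B, D (w i1) ≠ 0 := by
      by_contra hcon
      push Not at hcon
      have hBmem : ∀ c ∈ B.image w, c ^ (2 * p) ≠ c0 ^ (2 * p) ∧ D c = 0 ∧ c ≠ 0 := by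
        intro c hc
        obtain ⟨i, hi, rfl⟩ := Finset.mem_image.mp hc
        exact ⟨(Finset.mem_filter.mp hi).2, hcon i hi, hw i⟩
      have hnegmem : ∀ c (hc : c ∈ B.image w), -c ∈ B.image w := by
        intro c hc
        obtain ⟨h3, h4, h5⟩ := hBmem c hc
        have h6 : n (-c) = n c := by
          simp only [D] at h4
          omega
        obtain ⟨i, hi, rfl⟩ := Finset.mem_image.mp hc
        have h7 : 0 < n (-(w i)) := by
          rw [h6]
          exact Finset.card_pos.mpr ⟨i, Finset.mem_filter.mpr ⟨Finset.mem_univ _, rfl⟩⟩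
        obtain ⟨i2, hi2⟩ := Finset.card_pos.mp h7
        have hi2' := (Finset.mem_filter.mp hi2).2
        refine Finset.mem_image.mpr ⟨i2, Finset.mem_filter.mpr ⟨Finset.mem_univ _, ?_⟩, hi2'⟩
        rw [hi2', Even.neg_pow (even_two_mul p)]
        exact h3
      have hcardB : B.card = ∑ c ∈ B.image w, n c := by
        rw [Finset.card_eq_sum_card_image w B]
        refine Finset.sum_congr rfl fun c hc => ?_
        have h3 := (hBmem c hc).1
        simp only [n]
        congr 1
        ext i
        simp only [hB, Finset.mem_filter, Finset.mem_univ, true_and]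
        constructor
        · exact fun h => h.2
        · intro h
          exact ⟨by rw [h]; exact h3, h⟩
      have hzero : ∑ c ∈ B.image w, ((n c : ℕ) : ZMod 2) = 0 := by
        refine Finset.sum_involution (fun c _ => -c) ?_ ?_ hnegmem ?_
        · intro c hc
          obtain ⟨_, h4, _⟩ := hBmem c hc
          have h6 : n (-c) = n c := by
            simp only [D] at h4
            omega
          rw [h6]
          exact CharTwo.add_self_eq_zero _
        · intro c hc _
          have h5 := (hBmem c hc).2.2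
          intro h6
          apply h5
          have h7 : (2 : ℂ) * c = 0 := by
            rw [two_mul]
            nth_rewrite 1 [← h6]
            ring
          exact (mul_eq_zero.mp h7).resolve_left (by norm_num)
        · intro c _
          exact neg_neg c
      have hcast : ((B.card : ℕ) : ZMod 2) = 0 := by
        rw [hcardB]
        push_cast
        exact hzero
      have hev : Even B.card := by
        rw [ZMod.natCast_eq_zero_iff] at hcast
        exact even_iff_two_dvd.mpr hcast
      exact (Nat.not_even_iff_odd.mpr hBodd) hev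
    have hi1pow : w i1 ^ (2 * p) ≠ c0 ^ (2 * p) := (Finset.mem_filter.mp hi1).2
    obtain ⟨c1, hc1pos, hc1pow⟩ : ∃ c1, 0 < D c1 ∧ c1 ^ (2 * p) ≠ c0 ^ (2 * p) := by
      rcases lt_or_gt_of_ne hi1D with h | h
      · refine ⟨-(w i1), by rw [hDneg]; omega, ?_⟩
        rw [Even.neg_pow (even_two_mul p)]
        exact hi1pow
      · exact ⟨w i1, h, hi1pow⟩
    have hc10 := hposne c1 hc1pos
    have hex : ∀ (c : ℂ), c ≠ 0 → 0 < D c → ∀ j : ZMod p, ∃ a : ι, w a = c * ζ ^ j.val := by
      intro c hc hcpos j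
      have h3 : (1 : ℤ) ≤ n (c * ζ ^ j.val) := by
        have h4 := hnD (c * ζ ^ j.val)
        rw [horbit c hc _ (ZMod.val_lt j)] at h4
        linarith
      have h5 : 0 < n (c * ζ ^ j.val) := by
        have : (1 : ℕ) ≤ n (c * ζ ^ j.val) := by exact_mod_cast h3
        exact this
      obtain ⟨a, ha⟩ := Finset.card_pos.mp h5
      exact ⟨a, (Finset.mem_filter.mp ha).2⟩
    choose a ha using hex c0 hc00 hc0pos
    choose b hb using hex c1 hc10 hc1pos
    refine finish (fun x => if x then c1 else c0) (fun x => if x.1 then b x.2 else a x.2) ?_ ?_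
    · rintro ⟨x1, x2⟩ ⟨y1, y2⟩ hxy
      cases x1 <;> cases y1 <;> simp only [Bool.false_eq_true, if_false, if_true] at hxy
      · have h3 := congrArg w hxy
        rw [ha, ha] at h3
        rw [hpowinj c0 hc00 _ _ h3]
      · exfalso
        have h3 := congrArg w hxy
        rw [ha, hb] at h3
        apply hc1pow
        rw [← hpow2p c1 y2.val, ← h3, hpow2p]
      · exfalso
        have h3 := congrArg w hxy
        rw [hb, ha] at h3
        apply hc1pow
        rw [← hpow2p c1 x2.val, h3, hpow2p]
      · have h3 := congrArg w hxy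
        rw [hb, hb] at h3
        rw [hpowinj c1 hc10 _ _ h3]
    · rintro ⟨x1, x2⟩
      cases x1
      · simp [ha]
      · simp [hb]

end P043
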