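import Vale.Agent.Lib.P043.Defs

/-!
# P043, M3: Nullstellensatz + boundedness.

If every spectral point of a bounded `g` satisfies `z v = c` for some `(v, c)` in a list `L` of
pairs with `‖c‖ = 1`, then `∏_{(v,c) ∈ L} (T_v - c) g = 0`.
-/

open scoped BigOperators
open Classical

namespace P043
namespace M3

variable {d : ℕ}

/-! ### Elementary facts on `prodOp` -/

section prodOp
variable {G : Type*} [AddCommGroup G]

lemma prodOp_cons (q : G × ℂ) (L : List (G × ℂ)) (g : G → ℂ) (x : G) :
    prodOp (q :: L) g x = prodOp L g (x + q.1) - q.2 * prodOp L g x := rfl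

lemma prodOp_swap (a b : G × ℂ) (L : List (G × ℂ)) (g : G → ℂ) :
    prodOp (a :: b :: L) g = prodOp (b :: a :: L) g := by
  funext x
  simp only [prodOp_cons]
  have : x + a.1 + b.1 = x + b.1 + a.1 := by abel
  rw [this]
  ring

lemma prodOp_perm {L L' : List (G × ℂ)} (h : L.Perm L') (g : G → ℂ) :
    prodOp L g = prodOp L' g := by
  induction h with
  | nil => rfl
  | cons q _ ih =>
      funext x
      simp only [prodOp_cons, ih]
  | swap a b L => exact prodOp_swap b a L g
  | trans _ _ ih₁ ih₂ => exact ih₁.trans ih₂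

lemma prodOp_bounded (L : List (G × ℂ)) (g : G → ℂ) (hg : ∃ C, ∀ x, ‖g x‖ ≤ C) :
    ∃ C, ∀ x, ‖prodOp L g x‖ ≤ C := by
  induction L with
  | nil => exact hg
  | cons q L ih =>
      obtain ⟨C, hC⟩ := ih
      refine ⟨C + ‖q.2‖ * C, fun x => ?_⟩
      rw [prodOp_cons]
      calc ‖prodOp L g (x + q.1) - q.2 * prodOp L g x‖
          ≤ ‖prodOp L g (x + q.1)‖ + ‖q.2 * prodOp L g x‖ := norm_sub_le _ _
        _ ≤ C + ‖q.2‖ * C := by
            rw [norm_mul]
            exact add_le_add (hC _) (mul_le_mul_of_nonneg_left (hC _) (norm_nonneg _))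

/-- If `h` is bounded, `‖c‖ = 1` and `(T_v - c)² h = 0`, then `(T_v - c) h = 0`. -/
lemma sq_kill (h : G → ℂ) (hb : ∃ C, ∀ x, ‖h x‖ ≤ C) (v : G) (c : ℂ) (hc : ‖c‖ = 1)
    (h2 : ∀ x, (h (x + v + v) - c * h (x + v)) - c * (h (x + v) - c * h x) = 0) (x : G) :
    h (x + v) - c * h x = 0 := by
  obtain ⟨C, hC⟩ := hb
  set k : G → ℂ := fun y => h (y + v) - c * h y with hk
  have hk1 : ∀ y, k (y + v) = c * k y := by
    intro y
    have := h2 y
    simp only [hk]
    linear_combination this
  have hk2 : ∀ n : ℕ, k (x + n • v) = c ^ n * k x := by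
    intro n
    induction n with
    | zero => simp
    | succ n ih =>
        rw [succ_nsmul, ← add_assoc, hk1, ih, pow_succ]
        ring
  have hh : ∀ n : ℕ, h (x + n • v) = c ^ n * h x + n * c ^ (n - 1) * k x := by
    intro n
    induction n with
    | zero => simp
    | succ n ih =>
        rw [succ_nsmul, ← add_assoc]
        have e : h (x + n • v + v) = k (x + n • v) + c * h (x + n • v) := by
          simp only [hk]; ring
        rw [e, hk2, ih]
        cases n with
        | zero => simp; ring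
        | succ m =>
            simp only [Nat.add_sub_cancel, pow_succ]
            push_cast
            ring
  have hC0 : 0 ≤ C := le_trans (norm_nonneg _) (hC x)
  have hnorm : ∀ n : ℕ, (n : ℝ) * ‖k x‖ ≤ 2 * C := by
    intro n
    have e : (n : ℂ) * c ^ (n - 1) * k x = h (x + n • v) - c ^ n * h x := by
      rw [hh n]; ring
    have e2 : ‖(n : ℂ) * c ^ (n - 1) * k x‖ = (n : ℝ) * ‖k x‖ := by
      rw [norm_mul, norm_mul, norm_pow, hc, one_pow, mul_one, Complex.norm_natCast]
    rw [← e2, e]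
    calc ‖h (x + n • v) - c ^ n * h x‖ ≤ ‖h (x + n • v)‖ + ‖c ^ n * h x‖ := norm_sub_le _ _
      _ ≤ C + C := by
          refine add_le_add (hC _) ?_
          rw [norm_mul, norm_pow, hc, one_pow, one_mul]
          exact hC _
      _ = 2 * C := by ring
  by_contra hne
  have hpos : 0 < ‖k x‖ := norm_pos_iff.mpr hne
  obtain ⟨n, hn⟩ := exists_nat_gt (2 * C / ‖k x‖)
  have := hnorm n
  rw [div_lt_iff₀ hpos] at hn
  linarith

lemma remove_double (g : G → ℂ) (hg : ∃ C, ∀ x, ‖g x‖ ≤ C) (q : G × ℂ) (hq : ‖q.2‖ = 1)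
    (M : List (G × ℂ)) (h0 : prodOp (q :: q :: M) g = 0) : prodOp (q :: M) g = 0 := by
  funext x
  simp only [prodOp_cons, Pi.zero_apply]
  refine sq_kill (prodOp M g) (prodOp_bounded M g hg) q.1 q.2 hq ?_ x
  intro y
  have := congrFun h0 y
  simpa only [prodOp_cons, Pi.zero_apply] using this

lemma dedupe (g : G → ℂ) (hg : ∃ C, ∀ x, ‖g x‖ ≤ C) (L : List (G × ℂ))
    (hL : ∀ q ∈ L, ‖q.2‖ = 1) (L' : List (G × ℂ)) (hL' : ∀ q ∈ L', q ∈ L)
    (h0 : prodOp (L' ++ L) g = 0) : prodOp L g = 0 := by
  induction L' with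
  | nil => simpa using h0
  | cons q L'' ih =>
      have hqL : q ∈ L := hL' q (by simp)
      refine ih (fun r hr => hL' r (by simp [hr])) ?_
      have hperm : L.Perm (q :: L.erase q) := List.perm_cons_erase hqL
      set M := L'' ++ L.erase q with hM
      have p1 : (q :: L'' ++ L).Perm (q :: q :: M) := by
        simp only [List.cons_append, List.perm_cons]
        refine (List.Perm.append_left L'' hperm).trans ?_
        exact List.perm_middle
      have p2 : (L'' ++ L).Perm (q :: M) := by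
        refine (List.Perm.append_left L'' hperm).trans ?_
        exact List.perm_middle
      rw [prodOp_perm p2]
      refine remove_double g hg q (hL q hqL) M ?_
      rw [← prodOp_perm p1]
      exact h0

end prodOp

/-! ### The group algebra and its action -/

/-- Translation operators. -/
noncomputable def T : Multiplicative (Fin d → ℤ) →* Module.End ℂ ((Fin d → ℤ) → ℂ) where
  toFun v :=
    { toFun := fun g x => g (x + Multiplicative.toAdd v)
      map_add' := fun _ _ => rfl
      map_smul' := fun _ _ => rfl }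
  map_one' := by
    ext g x
    simp
  map_mul' := by
    intro a b
    ext g x
    show g (x + Multiplicative.toAdd (a * b)) =
      g (x + Multiplicative.toAdd a + Multiplicative.toAdd b)
    rw [toAdd_mul, add_assoc]

/-- The action of the group algebra on functions. -/
noncomputable def act : AddMonoidAlgebra ℂ (Fin d → ℤ) →ₐ[ℂ] Module.End ℂ ((Fin d → ℤ) → ℂ) :=
  AddMonoidAlgebra.lift ℂ _ _ T

lemma act_single (v : Fin d → ℤ) (c : ℂ) (g : (Fin d → ℤ) → ℂ) (x : Fin d → ℤ) :
    act (AddMonoidAlgebra.single v c) g x = c * g (x + v) := by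
  simp [act, AddMonoidAlgebra.lift_single, T]

/-- The element `∏_{(v,c) ∈ L} ([v] - c)` of the group algebra. -/
noncomputable def elt (L : List ((Fin d → ℤ) × ℂ)) : AddMonoidAlgebra ℂ (Fin d → ℤ) :=
  (L.map fun q => AddMonoidAlgebra.single q.1 1 - AddMonoidAlgebra.single 0 q.2).prod

lemma act_elt (L : List ((Fin d → ℤ) × ℂ)) (g : (Fin d → ℤ) → ℂ) :
    act (elt L) g = prodOp L g := by
  induction L with
  | nil =>
      simp [elt, prodOp]
  | cons q L ih =>
      funext x
      have e : elt (q :: L) =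
          (AddMonoidAlgebra.single q.1 1 - AddMonoidAlgebra.single 0 q.2) * elt L := by
        simp [elt]
      rw [e, map_mul, Module.End.mul_apply, map_sub, LinearMap.sub_apply, Pi.sub_apply, act_single,
        act_single, ih, prodOp_cons, add_zero, one_mul]

/-- `n`-fold repetition of a list. -/
def rep (L : List ((Fin d → ℤ) × ℂ)) : ℕ → List ((Fin d → ℤ) × ℂ)
  | 0 => []
  | n + 1 => L ++ rep L n

lemma elt_append (L L' : List ((Fin d → ℤ) × ℂ)) : elt (L ++ L') = elt L * elt L' := by
  simp [elt]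

lemma elt_rep (L : List ((Fin d → ℤ) × ℂ)) (n : ℕ) : elt (rep L n) = elt L ^ n := by
  induction n with
  | zero => simp [rep, elt]
  | succ n ih => rw [rep, elt_append, ih, pow_succ']

lemma mem_rep (L : List ((Fin d → ℤ) × ℂ)) (n : ℕ) (q) (hq : q ∈ rep L n) : q ∈ L := by
  induction n with
  | zero => simp [rep] at hq
  | succ n ih =>
      rw [rep, List.mem_append] at hq
      exact hq.elim id ih

/-! ### The polynomial ring -/

/-- The generators. -/
noncomputable def gen : Fin d ⊕ Fin d → AddMonoidAlgebra ℂ (Fin d → ℤ) :=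
  Sum.elim (fun i => AddMonoidAlgebra.single (Pi.single i 1) 1)
    (fun i => AddMonoidAlgebra.single (-Pi.single i 1) 1)

/-- The map from the polynomial ring to the group algebra. -/
noncomputable def φ : MvPolynomial (Fin d ⊕ Fin d) ℂ →ₐ[ℂ] AddMonoidAlgebra ℂ (Fin d → ℤ) :=
  MvPolynomial.aeval gen

/-- The annihilator ideal of `g`. -/
noncomputable def Ann (g : (Fin d → ℤ) → ℂ) : Ideal (MvPolynomial (Fin d ⊕ Fin d) ℂ) where
  carrier := {P | act (φ P) g = 0}
  zero_mem' := by simp
  add_mem' := by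
    intro a b ha hb
    simp only [Set.mem_ofPred_eq] at ha hb ⊢
    rw [map_add, map_add, LinearMap.add_apply, ha, hb, add_zero]
  smul_mem' := by
    intro c a ha
    simp only [Set.mem_ofPred_eq] at ha ⊢
    rw [smul_eq_mul, map_mul, map_mul, Module.End.mul_apply, ha, map_zero]

lemma mem_Ann (g : (Fin d → ℤ) → ℂ) (P) : P ∈ Ann g ↔ act (φ P) g = 0 := Iff.rfl

/-- Every group element lifts. -/
lemma exists_lift_single (v : Fin d → ℤ) :
    ∃ P : MvPolynomial (Fin d ⊕ Fin d) ℂ, φ P = AddMonoidAlgebra.single v 1 := by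
  let S : AddSubgroup (Fin d → ℤ) :=
    { carrier := {v | (∃ P, φ P = AddMonoidAlgebra.single v 1) ∧
        ∃ P, φ P = AddMonoidAlgebra.single (-v) 1}
      zero_mem' := by
        refine ⟨⟨1, ?_⟩, ⟨1, ?_⟩⟩
        · rw [map_one]; rfl
        · rw [map_one, neg_zero]; rfl
      add_mem' := by
        rintro a b ⟨⟨P, hP⟩, ⟨P', hP'⟩⟩ ⟨⟨Q, hQ⟩, ⟨Q', hQ'⟩⟩
        refine ⟨⟨P * Q, ?_⟩, ⟨P' * Q', ?_⟩⟩
        · rw [map_mul, hP, hQ, AddMonoidAlgebra.single_mul_single, one_mul]
        · rw [map_mul, hP', hQ', AddMonoidAlgebra.single_mul_single, one_mul, neg_add]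
      neg_mem' := by
        rintro a ⟨h1, h2⟩
        refine ⟨h2, ?_⟩
        simpa using h1 }
  have hS : ∀ i, (Pi.single i 1 : Fin d → ℤ) ∈ S := by
    intro i
    refine ⟨⟨MvPolynomial.X (Sum.inl i), ?_⟩, ⟨MvPolynomial.X (Sum.inr i), ?_⟩⟩ <;>
      simp [φ, gen]
  have hv : v ∈ S := by
    have e : v = ∑ i, (v i) • (Pi.single i 1 : Fin d → ℤ) := by
      funext j
      simp [Finset.sum_apply, Pi.single_apply]
    rw [e]
    exact S.sum_mem (fun i _ => S.zsmul_mem (hS i) _)
  exact hv.1

/-- The character attached to a point with nonzero coordinates. -/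
noncomputable def charOf (p : Fin d ⊕ Fin d → ℂ) (hp : ∀ i, p (Sum.inl i) ≠ 0) :
    AddChar (Fin d → ℤ) ℂ where
  toFun v := ∏ i, p (Sum.inl i) ^ (v i)
  map_zero_eq_one' := by simp
  map_add_eq_mul' := by
    intro a b
    simp only [Pi.add_apply]
    rw [← Finset.prod_mul_distrib]
    exact Finset.prod_congr rfl (fun i _ => zpow_add₀ (hp i) _ _)

lemma charOf_single (p : Fin d ⊕ Fin d → ℂ) (hp : ∀ i, p (Sum.inl i) ≠ 0) (i : Fin d) :
    charOf p hp (Pi.single i 1) = p (Sum.inl i) := by
  show ∏ j, p (Sum.inl j) ^ ((Pi.single i 1 : Fin d → ℤ) j) = _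
  rw [Finset.prod_eq_single i]
  · simp
  · intro j _ hj
    simp [Pi.single_eq_of_ne hj]
  · simp

/-- Evaluation of the group algebra at a character. -/
noncomputable def ev (z : AddChar (Fin d → ℤ) ℂ) : AddMonoidAlgebra ℂ (Fin d → ℤ) →ₐ[ℂ] ℂ :=
  AddMonoidAlgebra.lift ℂ _ _ z.toMonoidHom

lemma ev_single (z : AddChar (Fin d → ℤ) ℂ) (v : Fin d → ℤ) (c : ℂ) :
    ev z (AddMonoidAlgebra.single v c) = c * z v := by
  simp [ev, AddMonoidAlgebra.lift_single]

/-- The main step: points of the zero locus give spectral characters. -/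
lemma spectral_of_mem (g : (Fin d → ℤ) → ℂ) (p : Fin d ⊕ Fin d → ℂ)
    (hp : p ∈ MvPolynomial.zeroLocus ℂ (Ann g)) :
    ∃ z : AddChar (Fin d → ℤ) ℂ, IsSpectral g z ∧
      ∀ P : MvPolynomial (Fin d ⊕ Fin d) ℂ, MvPolynomial.aeval p P = ev z (φ P) := by
  have hunit : ∀ i, p (Sum.inl i) * p (Sum.inr i) = 1 := by
    intro i
    have hmem : (MvPolynomial.X (Sum.inl i) * MvPolynomial.X (Sum.inr i) - 1 :
        MvPolynomial (Fin d ⊕ Fin d) ℂ) ∈ Ann g := by
      rw [mem_Ann]
      have : φ (MvPolynomial.X (Sum.inl i) * MvPolynomial.X (Sum.inr i) - 1 :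
          MvPolynomial (Fin d ⊕ Fin d) ℂ) = 0 := by
        rw [map_sub, map_mul, map_one]
        simp only [φ, MvPolynomial.aeval_X, gen, Sum.elim_inl, Sum.elim_inr,
          AddMonoidAlgebra.single_mul_single, add_neg_cancel, one_mul]
        exact sub_self _
      rw [this]
      simp
    have := hp _ hmem
    simp only [map_sub, map_mul, MvPolynomial.aeval_X, map_one] at this
    exact sub_eq_zero.mp this
  have hne : ∀ i, p (Sum.inl i) ≠ 0 := fun i h => by
    have := hunit i
    rw [h, zero_mul] at this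
    exact zero_ne_one this
  let z := charOf p hne
  have hcomp : ∀ P : MvPolynomial (Fin d ⊕ Fin d) ℂ, MvPolynomial.aeval p P = ev z (φ P) := by
    intro P
    have : (MvPolynomial.aeval p : MvPolynomial (Fin d ⊕ Fin d) ℂ →ₐ[ℂ] ℂ) =
        (ev z).comp φ := by
      apply MvPolynomial.algHom_ext
      intro s
      rcases s with i | i
      · simp [φ, gen, ev_single, z, charOf_single]
      · simp only [MvPolynomial.aeval_X, AlgHom.comp_apply, φ, gen, Sum.elim_inr, ev_single, one_mul]
        have h1 : z (-Pi.single i 1) * z (Pi.single i 1) = 1 := by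
          rw [← AddChar.map_add_eq_mul]
          simp
        have h2 : z (Pi.single i 1) = p (Sum.inl i) := charOf_single p hne i
        rw [h2] at h1
        have h3 := hunit i
        apply mul_left_cancel₀ (hne i)
        linear_combination h3 - h1
    rw [this]
    rfl
  refine ⟨z, ?_, hcomp⟩
  intro s a ha
  -- lift `∑ a v [v]` to a polynomial
  choose Pv hPv using (exists_lift_single (d := d))
  let P : MvPolynomial (Fin d ⊕ Fin d) ℂ := ∑ v ∈ s, MvPolynomial.C (a v) * Pv v
  have hφ : φ P = ∑ v ∈ s, AddMonoidAlgebra.single v (a v) := by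
    simp only [P, map_sum, map_mul, hPv]
    refine Finset.sum_congr rfl (fun v _ => ?_)
    simp only [φ, MvPolynomial.aeval_C]
    rw [AddMonoidAlgebra.coe_algebraMap, Function.comp_apply, AddMonoidAlgebra.single_mul_single]
    simp
  have hmem : P ∈ Ann g := by
    rw [mem_Ann, hφ, map_sum]
    ext1 x
    have : (∑ v ∈ s, act (AddMonoidAlgebra.single v (a v))) g x = ∑ v ∈ s, a v * g (x + v) := by
      rw [LinearMap.sum_apply, Finset.sum_apply]
      exact Finset.sum_congr rfl (fun v _ => act_single v (a v) g x)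
    rw [this, ha x]
    rfl
  have h0 := hp P hmem
  rw [hcomp, hφ, map_sum] at h0
  simpa only [ev_single] using h0

end M3

open M3 in
/-- M3. Nullstellensatz + boundedness. -/
theorem kill {d : ℕ} (g : (Fin d → ℤ) → ℂ) (hg : ∃ C, ∀ x, ‖g x‖ ≤ C)
    (L : List ((Fin d → ℤ) × ℂ)) (hL : ∀ q ∈ L, ‖q.2‖ = 1)
    (h : ∀ z : AddChar (Fin d → ℤ) ℂ, IsSpectral g z → ∃ q ∈ L, z q.1 = q.2) :
    ∀ x, prodOp L g x = 0 := by
  choose Pv hPv using (exists_lift_single (d := d))
  -- the polynomial version of `elt L`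
  let O : MvPolynomial (Fin d ⊕ Fin d) ℂ :=
    (L.map fun q => Pv q.1 - MvPolynomial.C q.2).prod
  have hO : φ O = elt L := by
    simp only [O, elt, map_list_prod, List.map_map]
    congr 1
    refine List.map_congr_left (fun q _ => ?_)
    simp only [Function.comp_apply, map_sub, hPv]
    congr 1
    simp only [φ, MvPolynomial.aeval_C]
    rw [AddMonoidAlgebra.coe_algebraMap, Function.comp_apply]
    simp
  have hvan : O ∈ MvPolynomial.vanishingIdeal ℂ (MvPolynomial.zeroLocus ℂ (Ann g)) := by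
    intro p hp
    obtain ⟨z, hz, hcomp⟩ := spectral_of_mem g p hp
    obtain ⟨q, hq, hzq⟩ := h z hz
    simp only [O, map_list_prod, List.map_map]
    apply List.prod_eq_zero
    rw [List.mem_map]
    refine ⟨q, hq, ?_⟩
    simp only [Function.comp_apply, map_sub, MvPolynomial.aeval_C]
    rw [hcomp, hPv, ev_single, hzq]
    simp
  rw [MvPolynomial.vanishingIdeal_zeroLocus_eq_radical] at hvan
  obtain ⟨N, hN⟩ := hvan
  have hN' : O ^ (N + 1) ∈ Ann g := by
    rw [pow_succ']
    exact Ideal.mul_mem_left _ _ hN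
  rw [mem_Ann, map_pow, hO, ← elt_rep, act_elt] at hN'
  have hfin : prodOp L g = 0 := by
    refine dedupe g hg L hL (rep L N) (mem_rep L N) ?_
    rw [prodOp_perm List.perm_append_comm]
    exact hN'
  intro x
  rw [hfin]
  rfl

end P043
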