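import Vale.Agent.Lib.P043.Defs

/-!
# P043, module M4: dilation stable tilings

If `F ⊂ ℤ^d` tiles, then it has a tiling `A` such that `A ⊕ r F = ℤ^d` for all `r` coprime to `|F|`
(Tijdeman's theorem gives this for each `A` and each prime power of a congruence mod `q`, and the
counting argument forces this after a compactness step).
-/

open scoped BigOperators

namespace P043
namespace M4

section Frobenius

variable {G : Type*} [AddCommGroup G]

/-- The shift operator over `ZMod q`. -/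
noncomputable def shift (q : ℕ) [Fact q.Prime] (v : G) : Module.End (ZMod q) (G → ZMod q) :=
  LinearMap.funLeft (ZMod q) (ZMod q) (fun x => x - v)

lemma shift_apply (q : ℕ) [Fact q.Prime] (v : G) (g : G → ZMod q) (x : G) :
    shift q v g x = g (x - v) := rfl

lemma shift_zero (q : ℕ) [Fact q.Prime] : shift q (0 : G) = 1 := by
  ext g x
  simp [shift_apply]

lemma shift_mul (q : ℕ) [Fact q.Prime] (v w : G) : shift q v * shift q w = shift q (v + w) := by
  ext g x
  show g (x - v - w) = g (x - (v + w))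
  rw [sub_sub]

lemma shift_commute (q : ℕ) [Fact q.Prime] (v w : G) : Commute (shift q v) (shift q w) := by
  unfold Commute SemiconjBy
  rw [shift_mul, shift_mul, add_comm]

lemma shift_pow (q : ℕ) [Fact q.Prime] (v : G) (k : ℕ) : shift q v ^ k = shift q (k • v) := by
  induction k with
  | zero => simp [shift_zero]
  | succ k ih => rw [pow_succ, ih, shift_mul, succ_nsmul]

lemma sum_pow_comm {R : Type*} [Ring R] (q : ℕ) [Fact q.Prime] [CharP R q] {ι : Type*}
    (s : Finset ι) (t : ι → R) (h : ∀ i j, Commute (t i) (t j)) :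
    (∑ i ∈ s, t i) ^ q = ∑ i ∈ s, t i ^ q := by
  classical
  induction s using Finset.induction_on with
  | empty => simp [zero_pow (Fact.out : q.Prime).ne_zero]
  | insert a s ha ih =>
    rw [Finset.sum_insert ha, Finset.sum_insert ha, add_pow_char_of_commute, ih]
    exact Commute.sum_right _ _ _ (fun j _ => h a j)

/-- The Frobenius congruence: the sum over `q`-dilates is determined mod `q`. -/
lemma frobenius (q : ℕ) [Fact q.Prime] [Nonempty G] {ι : Type*} (s : Finset ι) (e : ι → G)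
    (g : G → ZMod q) (c : ZMod q) (hg : ∀ x, ∑ i ∈ s, g (x - e i) = c) (x : G) :
    ∑ i ∈ s, g (x - q • e i) = (s.card : ZMod q) ^ (q - 1) * c := by
  classical
  have : Nontrivial (G → ZMod q) := Function.nontrivial
  have : CharP (Module.End (ZMod q) (G → ZMod q)) q :=
    charP_of_injective_algebraMap (algebraMap (ZMod q) _).injective q
  set P : Module.End (ZMod q) (G → ZMod q) := ∑ i ∈ s, shift q (e i) with hP
  have hPapp : ∀ (h : G → ZMod q) (y : G), P h y = ∑ i ∈ s, h (y - e i) := by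
    intro h y
    simp [hP, LinearMap.sum_apply, Finset.sum_apply, shift_apply]
  have hpow : ∀ k : ℕ, (P ^ (k + 1)) g = fun _ => (s.card : ZMod q) ^ k * c := by
    intro k
    induction k with
    | zero =>
      funext y
      simp [hPapp, hg]
    | succ k ih =>
      rw [pow_succ', Module.End.mul_apply, ih]
      funext y
      rw [hPapp]
      simp [Finset.sum_const, pow_succ, mul_comm, mul_left_comm]
  have hq : 0 < q := (Fact.out : q.Prime).pos
  have hq1 : q - 1 + 1 = q := Nat.sub_add_cancel hq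
  have h1 : (P ^ q) g x = (s.card : ZMod q) ^ (q - 1) * c := by
    have := congrFun (hpow (q - 1)) x
    rwa [hq1] at this
  have h2 : P ^ q = ∑ i ∈ s, shift q (q • e i) := by
    rw [hP, sum_pow_comm q s _ (fun i j => shift_commute q _ _)]
    exact Finset.sum_congr rfl (fun i _ => shift_pow q _ _)
  rw [h2] at h1
  rw [← h1]
  simp [LinearMap.sum_apply, Finset.sum_apply, shift_apply]

end Frobenius

section Count

variable {G : Type*} [AddCommGroup G]

/-- The number of `f ∈ F` with `u (x - r • f)` true. -/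
def Cnt (F : Finset G) (r : ℕ) (u : G → Bool) (x : G) : ℕ :=
  ∑ f ∈ F, if u (x - r • f) = true then 1 else 0

lemma cnt_one_of_frobenius [Nonempty G] (F : Finset G) (q r' : ℕ) (hq : q.Prime) (hqn : ¬ q ∣ F.card)
    (u : G → Bool) (hu : ∀ y, Cnt F r' u y = 1) (x : G) : 1 ≤ Cnt F (q * r') u x := by
  have : Fact q.Prime := ⟨hq⟩
  set g : G → ZMod q := fun y => if u y = true then 1 else 0 with hg
  have hsum : ∀ (r : ℕ) (y : G), ((Cnt F r u y : ℕ) : ZMod q) = ∑ f ∈ F, g (y - r • f) := by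
    intro r y
    simp [Cnt, hg]
  have h1 : ∀ y, ∑ f ∈ F, g (y - r' • f) = 1 := by
    intro y
    rw [← hsum, hu]
    simp
  have h2 := frobenius q F (fun f => r' • f) g 1 h1 x
  have hn : (F.card : ZMod q) ≠ 0 := by
    rw [Ne, ZMod.natCast_eq_zero_iff]
    exact hqn
  rw [ZMod.pow_card_sub_one_eq_one hn, mul_one] at h2
  have h3 : ((Cnt F (q * r') u x : ℕ) : ZMod q) = 1 := by
    rw [hsum, ← h2]
    refine Finset.sum_congr rfl (fun f _ => ?_)
    rw [mul_smul]
  by_contra hcon
  have h0 : Cnt F (q * r') u x = 0 := by omega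
  rw [h0] at h3
  simp at h3

lemma mul_sum_le [DecidableEq G] (F : Finset G) (r' : ℕ) (u : G → Bool)
    (hu : ∀ y, Cnt F r' u y = 1) (W W' : Finset G) (w : G)
    (hW : ∀ x ∈ W, ∀ f' ∈ F, x - w + r' • f' ∈ W') :
    F.card * ∑ x ∈ W, (if u (x - w) = true then 1 else 0) ≤ W'.card := by
  calc F.card * ∑ x ∈ W, (if u (x - w) = true then 1 else 0)
      = ∑ _f' ∈ F, ∑ x ∈ W, (if u (x - w) = true then 1 else 0) := by
        rw [Finset.sum_const, smul_eq_mul]
    _ ≤ ∑ f' ∈ F, ∑ y ∈ W', (if u (y - r' • f') = true then 1 else 0) := by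
        refine Finset.sum_le_sum (fun f' hf' => ?_)
        calc ∑ x ∈ W, (if u (x - w) = true then 1 else 0)
            = ∑ y ∈ W.image (fun x => x - w + r' • f'),
                (if u (y - r' • f') = true then 1 else 0) := by
              rw [Finset.sum_image]
              · refine Finset.sum_congr rfl (fun x _ => ?_)
                rw [add_sub_cancel_right]
              · intro a _ b _ hab
                simpa using hab
          _ ≤ _ := by
              refine Finset.sum_le_sum_of_subset ?_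
              intro y hy
              obtain ⟨x, hx, rfl⟩ := Finset.mem_image.1 hy
              exact hW x hx f' hf'
    _ = ∑ y ∈ W', ∑ f' ∈ F, (if u (y - r' • f') = true then 1 else 0) := Finset.sum_comm
    _ = ∑ y ∈ W', 1 := Finset.sum_congr rfl (fun y _ => hu y)
    _ = W'.card := by simp

lemma sum_cnt_le [DecidableEq G] (F : Finset G) (hF : F.Nonempty) (r' s : ℕ) (u : G → Bool)
    (hu : ∀ y, Cnt F r' u y = 1) (W W' : Finset G)
    (hW : ∀ x ∈ W, ∀ f ∈ F, ∀ f' ∈ F, x - s • f + r' • f' ∈ W') :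
    ∑ x ∈ W, Cnt F s u x ≤ W'.card := by
  have h : F.card * ∑ x ∈ W, Cnt F s u x ≤ F.card * W'.card := by
    calc F.card * ∑ x ∈ W, Cnt F s u x
        = ∑ f ∈ F, F.card * ∑ x ∈ W, (if u (x - s • f) = true then 1 else 0) := by
          unfold Cnt
          rw [Finset.sum_comm, Finset.mul_sum]
      _ ≤ ∑ _f ∈ F, W'.card :=
          Finset.sum_le_sum fun f hf =>
            mul_sum_le F r' u hu W W' (s • f) (fun x hx f' hf' => hW x hx f hf f' hf')
      _ = F.card * W'.card := by simp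
  exact Nat.le_of_mul_le_mul_left h hF.card_pos

end Count

section Arith

lemma pow_add_le (b c e : ℕ) : (b + c) ^ (e + 1) ≤ b ^ (e + 1) + (e + 1) * c * (b + c) ^ e := by
  induction e with
  | zero => simp
  | succ e ih =>
    have h1 : b * (b + c) ^ e ≤ (b + c) ^ (e + 1) := by
      rw [pow_succ, mul_comm]
      exact Nat.mul_le_mul_left _ (Nat.le_add_right _ _)
    calc (b + c) ^ (e + 1 + 1) = b * (b + c) ^ (e + 1) + c * (b + c) ^ (e + 1) := by ring
      _ ≤ b * (b ^ (e + 1) + (e + 1) * c * (b + c) ^ e) + c * (b + c) ^ (e + 1) := by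
          gcongr
      _ = b ^ (e + 1 + 1) + (e + 1) * c * (b * (b + c) ^ e) + c * (b + c) ^ (e + 1) := by ring
      _ ≤ b ^ (e + 1 + 1) + (e + 1) * c * (b + c) ^ (e + 1) + c * (b + c) ^ (e + 1) := by
          gcongr
      _ = b ^ (e + 1 + 1) + (e + 1 + 1) * c * (b + c) ^ (e + 1) := by ring

lemma exists_M (d L R : ℕ) :
    ∃ M : ℕ, 0 < M ∧ (L * M + 2 * R) ^ d < M ^ d + (L * M) ^ d := by
  cases d with
  | zero => exact ⟨1, one_pos, by simp⟩
  | succ e =>
    refine ⟨(e + 1) * (2 * R) * (L + 2 * R) ^ e + 1, Nat.succ_pos _, ?_⟩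
    set M := (e + 1) * (2 * R) * (L + 2 * R) ^ e + 1 with hM
    have hM1 : 1 ≤ M := Nat.succ_le_succ (Nat.zero_le _)
    have h1 := pow_add_le (L * M) (2 * R) e
    have h2 : L * M + 2 * R ≤ (L + 2 * R) * M := by nlinarith
    have h3 : (L * M + 2 * R) ^ e ≤ (L + 2 * R) ^ e * M ^ e := by
      rw [← mul_pow]
      exact Nat.pow_le_pow_left h2 e
    have h4 : (e + 1) * (2 * R) * (L * M + 2 * R) ^ e ≤ (M - 1) * M ^ e := by
      have : M - 1 = (e + 1) * (2 * R) * (L + 2 * R) ^ e := by omega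
      rw [this, mul_assoc ((e + 1) * (2 * R))]
      exact Nat.mul_le_mul_left _ h3
    have h5 : (M - 1) * M ^ e + 1 ≤ M ^ (e + 1) := by
      have hpos : 0 < M ^ e := pow_pos hM1 _
      have hM2 : (M - 1) + 1 = M := by omega
      have : M ^ (e + 1) = (M - 1) * M ^ e + M ^ e := by
        calc M ^ (e + 1) = M * M ^ e := by rw [pow_succ, mul_comm]
          _ = ((M - 1) + 1) * M ^ e := by rw [hM2]
          _ = _ := by rw [add_mul, one_mul]
      omega
    omega

end Arith

section Box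

variable {d : ℕ}

/-- The box `∏ [a i, a i + L)`. -/
noncomputable def box (a : Fin d → ℤ) (L : ℕ) : Finset (Fin d → ℤ) :=
  Fintype.piFinset fun i => Finset.Ico (a i) (a i + L)

lemma mem_box {a x : Fin d → ℤ} {L : ℕ} : x ∈ box a L ↔ ∀ i, a i ≤ x i ∧ x i < a i + L := by
  simp [box, Fintype.mem_piFinset]

lemma card_box (a : Fin d → ℤ) (L : ℕ) : (box a L).card = L ^ d := by
  simp [box, Fintype.card_piFinset, Int.card_Ico]

lemma exists_bound (S : Finset (Fin d → ℤ)) :
    ∃ R : ℕ, ∀ v ∈ S, ∀ i, -(R : ℤ) ≤ v i ∧ v i ≤ R := by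
  refine ⟨S.sup (fun v => ∑ i, (v i).natAbs), fun v hv i => ?_⟩
  have h1 : ∑ i, (v i).natAbs ≤ S.sup (fun v => ∑ i, (v i).natAbs) :=
    Finset.le_sup (f := fun v => ∑ i, (v i).natAbs) hv
  have h2 : (v i).natAbs ≤ ∑ i, (v i).natAbs :=
    Finset.single_le_sum (f := fun i => (v i).natAbs) (fun _ _ => Nat.zero_le _) (Finset.mem_univ i)
  omega

/-- There are arbitrarily long windows without excess points. -/
lemma exists_window (F : Finset (Fin d → ℤ)) (hF : F.Nonempty) (r' s : ℕ) (u : (Fin d → ℤ) → Bool)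
    (hu : ∀ y, Cnt F r' u y = 1) (hN : ∀ x, 1 ≤ Cnt F s u x) (L : ℕ) (hL : 0 < L) :
    ∃ v, ∀ x ∈ box v L, Cnt F s u x = 1 := by
  classical
  by_contra hcon
  push Not at hcon
  obtain ⟨R, hR⟩ := exists_bound ((F ×ˢ F).image fun p => r' • p.2 - s • p.1)
  have hR' : ∀ f ∈ F, ∀ f' ∈ F, ∀ i, -(R : ℤ) ≤ (r' • f' - s • f) i ∧ (r' • f' - s • f) i ≤ R := by
    intro f hf f' hf' i
    exact hR _ (Finset.mem_image.2 ⟨(f, f'), Finset.mem_product.2 ⟨hf, hf'⟩, rfl⟩) i
  obtain ⟨M, _, hM⟩ := exists_M d L R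
  choose e he1 he2 using hcon
  set J : Finset (Fin d → ℤ) := box 0 M with hJ
  set E : Finset (Fin d → ℤ) := J.image (fun j => e ((L : ℤ) • j)) with hE
  have hLz : (0 : ℤ) < L := by exact_mod_cast hL
  have hinj : Set.InjOn (fun j : Fin d → ℤ => e ((L : ℤ) • j)) J := by
    intro j _ j' _ hjj
    funext i
    have h1 := mem_box.1 (he1 ((L : ℤ) • j)) i
    have h2 := mem_box.1 (he1 ((L : ℤ) • j')) i
    simp only at hjj
    rw [hjj] at h1
    simp only [Pi.smul_apply, smul_eq_mul] at h1 h2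
    by_contra hne
    rcases lt_or_gt_of_ne hne with hlt | hlt
    · have : (L : ℤ) * j i + L ≤ L * j' i := by nlinarith
      linarith [h1.2, h2.1]
    · have : (L : ℤ) * j' i + L ≤ L * j i := by nlinarith
      linarith [h1.1, h2.2]
  have hEcard : E.card = M ^ d := by
    rw [hE, Finset.card_image_of_injOn hinj, hJ, card_box]
  set W : Finset (Fin d → ℤ) := box 0 (L * M) with hW
  set W' : Finset (Fin d → ℤ) := box (fun _ => -(R : ℤ)) (L * M + 2 * R) with hW'
  have hEW : E ⊆ W := by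
    intro z hz
    obtain ⟨j, hj, rfl⟩ := Finset.mem_image.1 hz
    refine mem_box.2 (fun i => ?_)
    have h1 := mem_box.1 (he1 ((L : ℤ) • j)) i
    have h2 := mem_box.1 hj i
    simp only [Pi.smul_apply, smul_eq_mul, Pi.zero_apply, zero_add] at h1 h2 ⊢
    push_cast
    constructor
    · nlinarith [h1.1, h2.1]
    · have : (L : ℤ) * j i + L ≤ L * M := by nlinarith [h2.2]
      linarith [h1.2]
  have h1 : ∑ x ∈ W, Cnt F s u x ≤ W'.card := by
    refine sum_cnt_le F hF r' s u hu W W' (fun x hx f hf f' hf' => ?_)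
    refine mem_box.2 (fun i => ?_)
    have hx' := mem_box.1 hx i
    have hb := hR' f hf f' hf' i
    simp only [Pi.sub_apply, Pi.zero_apply, zero_add, Pi.add_apply, Pi.smul_apply] at hx' hb ⊢
    push_cast at hx' ⊢
    constructor <;> linarith [hx'.1, hx'.2, hb.1, hb.2]
  have h2 : W.card + E.card ≤ ∑ x ∈ W, Cnt F s u x := by
    calc W.card + E.card = ∑ x ∈ W, (1 + if x ∈ E then 1 else 0) := by
          rw [Finset.sum_add_distrib, Finset.sum_ite_mem, Finset.inter_eq_right.2 hEW]
          simp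
      _ ≤ _ := by
          refine Finset.sum_le_sum (fun x _ => ?_)
          split_ifs with hxE
          · obtain ⟨j, _, rfl⟩ := Finset.mem_image.1 hxE
            have h3 := hN (e ((L : ℤ) • j))
            have h4 := he2 ((L : ℤ) • j)
            omega
          · simpa using hN x
  have h3 : W'.card = (L * M + 2 * R) ^ d := card_box _ _
  have h4 : W.card = (L * M) ^ d := card_box _ _
  rw [h3] at h1
  rw [h4, hEcard] at h2
  omega

end Box

section Compact

variable {G : Type*} [AddCommGroup G]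

lemma continuous_cnt (F : Finset G) (r : ℕ) (x : G) :
    Continuous (fun u : G → Bool => Cnt F r u x) := by
  unfold Cnt
  refine continuous_finsetSum _ (fun f _ => ?_)
  exact (continuous_of_discreteTopology (f := fun b : Bool => if b = true then 1 else 0)).comp
    (continuous_apply (x - r • f))

lemma isClosed_cnt (F : Finset G) (r : ℕ) (x : G) :
    IsClosed {u : G → Bool | Cnt F r u x = 1} :=
  isClosed_eq (continuous_cnt F r x) continuous_const

lemma cnt_shift (F : Finset G) (r : ℕ) (u : G → Bool) (v x : G) :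
    Cnt F r (fun y => u (y + v)) x = Cnt F r u (x + v) := by
  unfold Cnt
  refine Finset.sum_congr rfl (fun f _ => ?_)
  show (if u (x - r • f + v) = true then 1 else 0) = _
  rw [sub_add_eq_add_sub]

end Compact

/-- One step: from a shift invariant closed family inside `Y_{r'}`, one reaches `Y_{q r'}`. -/
lemma core {d : ℕ} (F : Finset (Fin d → ℤ)) (hF : F.Nonempty) (Z : Set ((Fin d → ℤ) → Bool))
    (hZc : IsClosed Z) (hZn : Z.Nonempty) (hZi : ∀ u ∈ Z, ∀ v, (fun x => u (x + v)) ∈ Z)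
    (r' q : ℕ) (hq : q.Prime) (hqn : ¬ q ∣ F.card)
    (hZr : ∀ u ∈ Z, ∀ x, Cnt F r' u x = 1) :
    ∃ u ∈ Z, ∀ x, Cnt F (q * r') u x = 1 := by
  classical
  have key := hZc.isCompact.inter_iInter_nonempty
    (fun x : Fin d → ℤ => {u : (Fin d → ℤ) → Bool | Cnt F (q * r') u x = 1})
    (fun x => isClosed_cnt F (q * r') x) (fun s => ?_)
  · obtain ⟨u, huZ, hu⟩ := key
    exact ⟨u, huZ, fun x => Set.mem_iInter.1 hu x⟩
  · obtain ⟨u₀, hu₀⟩ := hZn
    obtain ⟨ℓ, hℓ⟩ := exists_bound s
    obtain ⟨v, hv⟩ := exists_window F hF r' (q * r') u₀ (hZr u₀ hu₀)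
      (fun x => cnt_one_of_frobenius F q r' hq hqn u₀ (hZr u₀ hu₀) x) (2 * ℓ + 1) (Nat.succ_pos _)
    refine ⟨fun x => u₀ (x + (v + fun _ => (ℓ : ℤ))), ⟨hZi u₀ hu₀ _, ?_⟩⟩
    refine Set.mem_iInter₂.2 (fun x hx => ?_)
    show Cnt F (q * r') _ x = 1
    rw [cnt_shift]
    refine hv _ (mem_box.2 (fun i => ?_))
    have := hℓ x hx i
    simp only [Pi.add_apply]
    push_cast
    constructor <;> linarith [this.1, this.2]

/-- The family at stage `N`. -/
def stage {G : Type*} [AddCommGroup G] (F : Finset G) (N : ℕ) : Set (G → Bool) :=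
  {u | ∀ r, 0 < r → r ≤ N + 1 → r.Coprime F.card → ∀ x, Cnt F r u x = 1}

lemma stage_closed {G : Type*} [AddCommGroup G] (F : Finset G) (N : ℕ) : IsClosed (stage F N) := by
  have : stage F N = ⋂ r, ⋂ (_ : 0 < r), ⋂ (_ : r ≤ N + 1), ⋂ (_ : r.Coprime F.card), ⋂ x,
      {u | Cnt F r u x = 1} := by
    ext u
    simp [stage]
  rw [this]
  exact isClosed_iInter fun r => isClosed_iInter fun _ => isClosed_iInter fun _ =>
    isClosed_iInter fun _ => isClosed_iInter fun x => isClosed_cnt F r x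

lemma stage_shift {G : Type*} [AddCommGroup G] (F : Finset G) (N : ℕ) :
    ∀ u ∈ stage F N, ∀ v, (fun x => u (x + v)) ∈ stage F N := by
  intro u hu v r h0 h1 h2 x
  rw [cnt_shift]
  exact hu r h0 h1 h2 _

lemma stage_nonempty {d : ℕ} (F : Finset (Fin d → ℤ)) (hF : F.Nonempty)
    (h0 : ∃ u : (Fin d → ℤ) → Bool, ∀ x, Cnt F 1 u x = 1) (N : ℕ) : (stage F N).Nonempty := by
  induction N with
  | zero =>
    obtain ⟨u, hu⟩ := h0
    refine ⟨u, fun r hr hr' _ x => ?_⟩
    have : r = 1 := by omega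
    rw [this]
    exact hu x
  | succ N ih =>
    by_cases hc : (N + 2).Coprime F.card
    · have hne : N + 2 ≠ 1 := by omega
      have hq : (N + 2).minFac.Prime := Nat.minFac_prime hne
      set q := (N + 2).minFac with hqdef
      obtain ⟨r', hr'⟩ : q ∣ N + 2 := Nat.minFac_dvd _
      have hq2 := hq.two_le
      have hr'0 : 0 < r' := by
        rcases Nat.eq_zero_or_pos r' with h | h
        · rw [h] at hr'; omega
        · exact h
      have hr'le : r' ≤ N + 1 := by
        have : 2 * r' ≤ q * r' := Nat.mul_le_mul_right _ hq2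
        omega
      have hcr' : r'.Coprime F.card :=
        Nat.Coprime.coprime_dvd_left (Dvd.intro_left q hr'.symm) hc
      have hqn : ¬ q ∣ F.card := by
        intro h
        have h1 : q ∣ Nat.gcd (N + 2) F.card := Nat.dvd_gcd (Nat.minFac_dvd _) h
        rw [hc] at h1
        exact hq.one_lt.ne' (Nat.dvd_one.1 h1)
      obtain ⟨u, hu, hu'⟩ := core F hF (stage F N) (stage_closed F N) ih (stage_shift F N) r' q hq hqn
        (fun u hu x => hu r' hr'0 hr'le hcr' x)
      refine ⟨u, fun r h0 h1 h2 x => ?_⟩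
      rcases Nat.lt_or_ge r (N + 2) with h | h
      · exact hu r h0 (by omega) h2 x
      · have : r = q * r' := by omega
        rw [this]
        exact hu' x
    · obtain ⟨u, hu⟩ := ih
      refine ⟨u, fun r h0 h1 h2 x => ?_⟩
      rcases Nat.lt_or_ge r (N + 2) with h | h
      · exact hu r h0 (by omega) h2 x
      · have : r = N + 2 := by omega
        rw [this] at h2
        exact absurd h2 hc

lemma exists_all {d : ℕ} (F : Finset (Fin d → ℤ)) (hF : F.Nonempty)
    (h0 : ∃ u : (Fin d → ℤ) → Bool, ∀ x, Cnt F 1 u x = 1) :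
    ∃ u : (Fin d → ℤ) → Bool, ∀ r, 0 < r → r.Coprime F.card → ∀ x, Cnt F r u x = 1 := by
  have hanti : ∀ N, stage F (N + 1) ⊆ stage F N := by
    intro N u hu r h0 h1 h2 x
    exact hu r h0 (by omega) h2 x
  obtain ⟨u, hu⟩ := IsCompact.nonempty_iInter_of_sequence_nonempty_isCompact_isClosed
    (fun N => stage F N) hanti (stage_nonempty F hF h0) (stage_closed F 0).isCompact
    (stage_closed F)
  refine ⟨u, fun r h0 h1 x => ?_⟩
  exact (Set.mem_iInter.1 hu r) r h0 (by omega) h1 x

lemma cnt_eq_one_iff {G : Type*} [AddCommGroup G] (F : Finset G) (r : ℕ) (u : G → Bool) (x : G) :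
    Cnt F r u x = 1 ↔ ∃! f, f ∈ F ∧ u (x - r • f) = true := by
  classical
  unfold Cnt
  rw [← Finset.card_filter, Finset.card_eq_one]
  constructor
  · rintro ⟨a, ha⟩
    have hmem : ∀ f, f ∈ F ∧ u (x - r • f) = true ↔ f = a := by
      intro f
      have := Finset.ext_iff.1 ha f
      simpa only [Finset.mem_filter, Finset.mem_singleton] using this
    exact ⟨a, (hmem a).2 rfl, fun y hy => (hmem y).1 hy⟩
  · rintro ⟨a, ha, ha'⟩
    refine ⟨a, ?_⟩
    ext f
    rw [Finset.mem_filter, Finset.mem_singleton]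
    exact ⟨ha' f, fun h => h ▸ ha⟩

end M4

/-- **M4.** A tile has a tiling which is stable under all dilations coprime to its size. -/
theorem exists_dilation_stable {d : ℕ} (F : Finset (Fin d → ℤ)) (hF : F.Nonempty)
    (hT : ∃ A, IsTiling A F) :
    ∃ A, IsTiling A F ∧ ∀ r : ℕ, 0 < r → r.Coprime F.card →
      ∀ x, ∃! f, f ∈ F ∧ x - r • f ∈ A := by
  classical
  obtain ⟨A₀, hA₀⟩ := hT
  have h0 : ∃ u : (Fin d → ℤ) → Bool, ∀ x, M4.Cnt F 1 u x = 1 := by
    refine ⟨fun x => decide (x ∈ A₀), fun x => ?_⟩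
    rw [M4.cnt_eq_one_iff]
    obtain ⟨q, ⟨hq1, hq2, hq3⟩, hq⟩ := hA₀ x
    refine ⟨q.2, ⟨hq2, ?_⟩, ?_⟩
    · simp only [one_smul, decide_eq_true_eq]
      rw [← hq3, add_sub_cancel_right]
      exact hq1
    · rintro f ⟨hf, hf'⟩
      simp only [one_smul, decide_eq_true_eq] at hf'
      have := hq (x - f, f) ⟨hf', hf, sub_add_cancel x f⟩
      rw [← this]
  obtain ⟨u, hu⟩ := M4.exists_all F hF h0
  have hmem : ∀ y, y ∈ {x | u x = true} ↔ u y = true := fun y => Iff.rfl
  refine ⟨{x | u x = true}, ?_, ?_⟩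
  · intro x
    have h1 := (M4.cnt_eq_one_iff F 1 u x).1 (hu 1 one_pos (Nat.coprime_one_left _) x)
    obtain ⟨f, ⟨hf, hf'⟩, hfu⟩ := h1
    simp only [one_smul] at hf' hfu
    refine ⟨(x - f, f), ⟨hf', hf, sub_add_cancel x f⟩, ?_⟩
    rintro ⟨a, g⟩ ⟨h1, h2, h3⟩
    simp only at h1 h2 h3
    have h4 : x - g = a := by rw [← h3, add_sub_cancel_right]
    have h5 := hfu g ⟨h2, by rw [h4]; exact h1⟩
    subst h5
    rw [← h4]
  · intro r hr hc x
    exact (M4.cnt_eq_one_iff F r u x).1 (hu r hr hc x)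

end P043
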