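import Vale.Agent.Lib.P043.Defs

/-!
# P043, module M5: the 2-adic contradiction on a finite abelian group of odd order
-/

open scoped BigOperators
open Classical

namespace P043

section M5

variable {H : Type*} [AddCommGroup H]

private lemma char_neg_mul (ψ : AddChar H ℂ) (v : H) : ψ (-v) * ψ v = 1 := by
  rw [← AddChar.map_add_eq_mul]; simp

/-- The Fourier transform of an iterated difference. -/
private lemma sum_diffs_mul [Fintype H] (ψ : AddChar H ℂ) (L : List H) (c : H → ℤ) :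
    ∑ h, ((diffs L c h : ℤ) : ℂ) * ψ h =
      (L.map (fun v => ψ (-v) - 1)).prod * ∑ h, (c h : ℂ) * ψ h := by
  induction L with
  | nil => simp [diffs]
  | cons v L ih =>
    have hshift : ∑ h, ((diffs L c (h + v) : ℤ) : ℂ) * ψ h =
        ψ (-v) * ∑ h, ((diffs L c h : ℤ) : ℂ) * ψ h := by
      rw [Finset.mul_sum]
      refine Fintype.sum_equiv (Equiv.addRight v) _ _ fun h => ?_
      simp only [Equiv.coe_addRight, AddChar.map_add_eq_mul]
      have := char_neg_mul ψ v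
      calc ((diffs L c (h + v) : ℤ) : ℂ) * ψ h
          = ((diffs L c (h + v) : ℤ) : ℂ) * ψ h * (ψ (-v) * ψ v) := by rw [this, mul_one]
        _ = _ := by ring
    simp only [diffs, List.map_cons, List.prod_cons]
    push_cast
    simp_rw [sub_mul]
    rw [Finset.sum_sub_distrib, hshift, ih]
    simp
    ring

private lemma char_pow_eq_one {K : ℕ} (hKH : ∀ h : H, K • h = 0) (ψ : AddChar H ℂ) (h : H) :
    ψ h ^ K = 1 := by
  rw [← AddChar.map_nsmul_eq_pow, hKH]; simp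

private lemma char_isIntegral {K : ℕ} (hK : 0 < K) (hKH : ∀ h : H, K • h = 0)
    (ψ : AddChar H ℂ) (h : H) : IsIntegral ℤ (ψ h) :=
  IsIntegral.of_pow hK (by rw [char_pow_eq_one hKH]; exact isIntegral_one)

/-- If `ω ^ K = 1`, `ω ≠ 1`, then `ω - 1` divides `K` among algebraic integers. -/
private lemma exists_mul_eq_card {K : ℕ} {ω : ℂ} (hint : IsIntegral ℤ ω) (hω : ω ^ K = 1)
    (hne : ω ≠ 1) : ∃ ξ : ℂ, IsIntegral ℤ ξ ∧ (ω - 1) * ξ = (K : ℂ) := by
  refine ⟨-∑ i ∈ Finset.range K, ∑ l ∈ Finset.range i, ω ^ l, ?_, ?_⟩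
  · refine IsIntegral.neg (IsIntegral.sum _ fun i _ => IsIntegral.sum _ fun l _ => hint.pow l)
  · have hzero : ∑ i ∈ Finset.range K, ω ^ i = 0 := by
      have h := geom_sum_mul ω K
      rw [hω, sub_self] at h
      exact (mul_eq_zero.mp h).resolve_right (sub_ne_zero.mpr hne)
    have hstep : ∀ i : ℕ, (ω - 1) * ∑ l ∈ Finset.range i, ω ^ l = ω ^ i - 1 := fun i => by
      rw [mul_comm]; exact geom_sum_mul ω i
    rw [mul_neg, Finset.mul_sum]
    simp_rw [hstep]
    rw [Finset.sum_sub_distrib, hzero]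
    simp

/-- Clearing a product of `ω - 1`'s at the cost of a power of `K`. -/
private lemma exists_prod_mul_eq_pow {K : ℕ} (hK : 0 < K) (hKH : ∀ h : H, K • h = 0)
    (ψ : AddChar H ℂ) (L : List H) (hL : ∀ v ∈ L, ψ v ≠ 1) :
    ∃ ξ : ℂ, IsIntegral ℤ ξ ∧ (L.map (fun v => ψ (-v) - 1)).prod * ξ = (K : ℂ) ^ L.length := by
  induction L with
  | nil => exact ⟨1, isIntegral_one, by simp⟩
  | cons v L ih =>
    obtain ⟨ξ, hξ, hξe⟩ := ih fun w hw => hL w (List.mem_cons_of_mem v hw)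
    have hne : ψ (-v) ≠ 1 := by
      intro h
      apply hL v List.mem_cons_self
      have := char_neg_mul ψ v
      rwa [h, one_mul] at this
    obtain ⟨ξ', hξ', hξ'e⟩ := exists_mul_eq_card (char_isIntegral hK hKH ψ (-v))
      (char_pow_eq_one hKH ψ (-v)) hne
    refine ⟨ξ' * ξ, hξ'.mul hξ, ?_⟩
    simp only [List.map_cons, List.prod_cons, List.length_cons, pow_succ]
    rw [← hξe, ← hξ'e]
    ring

/-- The integer `n` divided by `d` is an algebraic integer only if `d ∣ n`. -/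
private lemma dvd_of_eq_mul_integral {d n : ℤ} (hd : d ≠ 0) {η : ℂ} (hη : IsIntegral ℤ η)
    (h : (n : ℂ) = (d : ℂ) * η) : d ∣ n := by
  have hd' : (d : ℂ) ≠ 0 := by exact_mod_cast hd
  have hq : η = (algebraMap ℚ ℂ) ((n : ℚ) / (d : ℚ)) := by
    simp only [map_div₀, eq_ratCast, Rat.cast_intCast]
    rw [h]; field_simp
  have hq' : IsIntegral ℤ ((n : ℚ) / (d : ℚ)) := by
    rw [hq] at hη
    exact (isIntegral_algebraMap_iff (algebraMap ℚ ℂ).injective).mp hη
  obtain ⟨y, hy⟩ := IsIntegrallyClosed.isIntegral_iff.mp hq'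
  refine ⟨y, ?_⟩
  have hd'' : (d : ℚ) ≠ 0 := by exact_mod_cast hd
  have : (n : ℚ) = d * y := by
    have hy' : (y : ℚ) = (n : ℚ) / (d : ℚ) := by simpa using hy
    rw [hy']; field_simp
  exact_mod_cast this

/-- The integer arithmetic at the end of the proof. -/
private lemma arith_final [Fintype H] {N S : ℤ} {m p : ℕ} (hN : Odd N) (hNpos : 0 < N)
    (hp1 : 1 < p) (hpo : Odd p) (c : H → ℤ)
    (hc : ∀ h, 0 ≤ c h ∧ c h ≤ 2 ^ m) (hS : S = ∑ h, c h)
    (hN' : N = Fintype.card H)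
    (hsum : 2 * (p : ℤ) * S = 2 ^ m * N)
    (hdvd : ∀ h, (2 : ℤ) ^ m ∣ N * c h - S) : False := by
  rcases m with _ | m
  · -- `2 p S = N` with `N` odd
    simp only [pow_zero, one_mul] at hsum
    rcases hN with ⟨k, hk⟩
    have h2 : 2 * ((p : ℤ) * S) = 2 * k + 1 := by rw [← hk, ← hsum]; ring
    omega
  · have hpS : (p : ℤ) * S = 2 ^ m * N := by
      have : 2 * ((p : ℤ) * S) = 2 * (2 ^ m * N) := by rw [← mul_assoc, hsum, pow_succ]; ring
      exact mul_left_cancel₀ (by norm_num) this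
    have hall : ∀ h, c h = 2 ^ m := by
      intro h
      -- `2^(m+1) ∣ N (p c - 2^m)`
      have h1 : (2 : ℤ) ^ (m + 1) ∣ N * ((p : ℤ) * c h - 2 ^ m) := by
        have := (hdvd h).mul_left (p : ℤ)
        have e : (p : ℤ) * (N * c h - S) = N * ((p : ℤ) * c h - 2 ^ m) := by
          have : (p : ℤ) * (N * c h - S) = N * ((p : ℤ) * c h) - (p : ℤ) * S := by ring
          rw [this, hpS]; ring
        rwa [e] at this
      have hcop : IsCoprime ((2 : ℤ) ^ (m + 1)) N := by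
        apply IsCoprime.pow_left
        rcases hN with ⟨k, hk⟩
        exact ⟨-k, 1, by rw [hk]; ring⟩
      have h2 : (2 : ℤ) ^ (m + 1) ∣ (p : ℤ) * c h - 2 ^ m := hcop.dvd_of_dvd_mul_left h1
      obtain ⟨t, ht⟩ := h2
      -- `p c = 2^m (1 + 2 t)`
      have h3 : (p : ℤ) * c h = 2 ^ m * (1 + 2 * t) := by
        rw [pow_succ] at ht; linarith
      have hpo' : Odd (p : ℤ) := by exact_mod_cast hpo
      have hcop2 : IsCoprime ((2 : ℤ) ^ m) (p : ℤ) := by
        apply IsCoprime.pow_left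
        rcases hpo' with ⟨k, hk⟩
        exact ⟨-k, 1, by rw [hk]; ring⟩
      have h4 : (2 : ℤ) ^ m ∣ c h := by
        have : (2 : ℤ) ^ m ∣ (p : ℤ) * c h := ⟨_, h3⟩
        exact hcop2.dvd_of_dvd_mul_left this
      obtain ⟨w, hw⟩ := h4
      have hpow : (0 : ℤ) < 2 ^ m := by positivity
      have h5 : (p : ℤ) * w = 1 + 2 * t := by
        have : (2 : ℤ) ^ m * ((p : ℤ) * w) = 2 ^ m * (1 + 2 * t) := by
          rw [← h3, hw]; ring
        exact mul_left_cancel₀ hpow.ne' this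
      have hw0 : 0 ≤ w := by
        have := (hc h).1
        rw [hw] at this
        exact nonneg_of_mul_nonneg_right this hpow
      have hw2 : w ≤ 2 := by
        have := (hc h).2
        rw [hw, pow_succ] at this
        have h' : (2 : ℤ) ^ m * w ≤ 2 ^ m * 2 := this
        exact le_of_mul_le_mul_left h' hpow
      have hwodd : Odd w := by
        have : Odd ((p : ℤ) * w) := by rw [h5]; exact ⟨t, by ring⟩
        exact (Int.odd_mul.mp this).2
      have hw1 : w = 1 := by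
        rcases hwodd with ⟨k, hk⟩
        omega
      rw [hw, hw1, mul_one]
    have hSval : S = N * 2 ^ m := by
      rw [hS, hN']
      simp_rw [hall]
      simp
    rw [hSval] at hpS
    have hpow : (0 : ℤ) < 2 ^ m := by positivity
    have : (p : ℤ) * (N * 2 ^ m) = 1 * (N * 2 ^ m) := by rw [hpS]; ring
    have hp : (p : ℤ) = 1 := mul_right_cancel₀ (by positivity) this
    have : p = 1 := by exact_mod_cast hp
    omega

end M5

/-- M5. The 2-adic contradiction. -/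
theorem finale {H : Type*} [AddCommGroup H] [Fintype H] {K : ℕ} (hK : Odd K)
    (hKH : ∀ h : H, K • h = 0) (hH : Odd (Fintype.card H))
    (c : H → ℤ) (m p : ℕ) (hp1 : 1 < p) (hpo : Odd p)
    (hc : ∀ h, 0 ≤ c h ∧ c h ≤ 2 ^ m)
    (hsum : 2 * (p : ℤ) * ∑ h, c h = 2 ^ m * Fintype.card H)
    (hψ : ∀ ψ : AddChar H ℂ, ψ ≠ 1 → ∑ h, (c h : ℂ) * ψ h ≠ 0 →
      ∃ (L : List H) (g : H → ℤ), (∀ v ∈ L, ψ v ≠ 1) ∧ ∀ x, diffs L c x = 2 ^ m * g x) :
    False := by
  have hKpos : 0 < K := hK.pos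
  -- for each nontrivial `ψ`: `K ^ n * c̃ ψ ∈ 2 ^ m * O`
  have hstep : ∀ ψ : AddChar H ℂ, ∃ n : ℕ, ψ ≠ 1 → ∃ η : ℂ, IsIntegral ℤ η ∧
      (K : ℂ) ^ n * ∑ h, (c h : ℂ) * ψ h = 2 ^ m * η := by
    intro ψ
    by_cases hψ1 : ψ ≠ 1 ∧ ∑ h, (c h : ℂ) * ψ h ≠ 0
    · obtain ⟨L, g, hL, hg⟩ := hψ ψ hψ1.1 hψ1.2
      refine ⟨L.length, fun _ => ?_⟩
      obtain ⟨ξ, hξ, hξe⟩ := exists_prod_mul_eq_pow hKpos hKH ψ L hL
      have hF := sum_diffs_mul ψ L c
      have hF' : (L.map (fun v => ψ (-v) - 1)).prod * ∑ h, (c h : ℂ) * ψ h =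
          2 ^ m * ∑ h, (g h : ℂ) * ψ h := by
        rw [← hF, Finset.mul_sum]
        refine Finset.sum_congr rfl fun h _ => ?_
        rw [hg h]; push_cast; ring
      refine ⟨(∑ h, (g h : ℂ) * ψ h) * ξ, ?_, ?_⟩
      · refine (IsIntegral.sum _ fun h _ => ?_).mul hξ
        exact (isIntegral_algebraMap (x := g h) (R := ℤ) (A := ℂ)
          |>.mul (char_isIntegral hKpos hKH ψ h) : _)
      · rw [← hξe]
        calc (L.map (fun v => ψ (-v) - 1)).prod * ξ * ∑ h, (c h : ℂ) * ψ h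
            = ((L.map (fun v => ψ (-v) - 1)).prod * ∑ h, (c h : ℂ) * ψ h) * ξ := by ring
          _ = _ := by rw [hF']; ring
    · refine ⟨0, fun hne => ⟨0, isIntegral_zero, ?_⟩⟩
      have h0 : ∑ h, (c h : ℂ) * ψ h = 0 := by
        by_contra h
        exact hψ1 ⟨hne, h⟩
      simp [h0]
  choose n hn using hstep
  let E : ℕ := ∑ ψ : AddChar H ℂ, n ψ
  have hE : ∀ ψ : AddChar H ℂ, ψ ≠ 1 → ∃ η : ℂ, IsIntegral ℤ η ∧
      (K : ℂ) ^ E * ∑ h, (c h : ℂ) * ψ h = 2 ^ m * η := by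
    intro ψ hne
    obtain ⟨η, hη, he⟩ := hn ψ hne
    have hle : n ψ ≤ E := Finset.single_le_sum (f := n) (fun _ _ => Nat.zero_le _) (Finset.mem_univ ψ)
    refine ⟨(K : ℂ) ^ (E - n ψ) * η, ?_, ?_⟩
    · exact ((isIntegral_algebraMap (x := (K : ℤ)) (R := ℤ) (A := ℂ)).pow _ |>.mul hη : _)
        |> fun h => by simpa using h
    · calc (K : ℂ) ^ E * ∑ h, (c h : ℂ) * ψ h
          = (K : ℂ) ^ (E - n ψ) * ((K : ℂ) ^ n ψ * ∑ h, (c h : ℂ) * ψ h) := by
            rw [← mul_assoc, ← pow_add, Nat.sub_add_cancel hle]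
        _ = _ := by rw [he]; ring
  choose! η hηint hηe using hE
  set N : ℤ := (Fintype.card H : ℤ) with hNdef
  set S : ℤ := ∑ h, c h with hSdef
  -- inversion
  have hinv : ∀ h : H, (N : ℂ) * (c h : ℂ) =
      ∑ ψ : AddChar H ℂ, (∑ k, (c k : ℂ) * ψ k) * ψ (-h) := by
    intro h
    have : ∑ ψ : AddChar H ℂ, (∑ k, (c k : ℂ) * ψ k) * ψ (-h) =
        ∑ k, (c k : ℂ) * ∑ ψ : AddChar H ℂ, ψ (k - h) := by
      simp_rw [Finset.sum_mul, Finset.mul_sum]
      rw [Finset.sum_comm]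
      refine Finset.sum_congr rfl fun k _ => Finset.sum_congr rfl fun ψ _ => ?_
      rw [sub_eq_add_neg, AddChar.map_add_eq_mul]; ring
    rw [this]
    simp_rw [AddChar.sum_apply_eq_ite, sub_eq_zero]
    rw [Finset.sum_eq_single h]
    · simp [hNdef]; ring
    · intro k _ hk; simp [hk]
    · intro hh; exact absurd (Finset.mem_univ h) hh
  have hdvd : ∀ h, (2 : ℤ) ^ m ∣ N * c h - S := by
    intro h
    have hint : IsIntegral ℤ (∑ ψ ∈ Finset.univ.erase (1 : AddChar H ℂ), η ψ * ψ (-h)) :=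
      IsIntegral.sum _ fun ψ hψ' =>
        (hηint ψ (Finset.ne_of_mem_erase hψ')).mul (char_isIntegral hKpos hKH ψ (-h))
    have heq : (((K : ℤ) ^ E * (N * c h - S) : ℤ) : ℂ) =
        (((2 : ℤ) ^ m : ℤ) : ℂ) * ∑ ψ ∈ Finset.univ.erase (1 : AddChar H ℂ), η ψ * ψ (-h) := by
      have h1 : (((K : ℤ) ^ E * (N * c h - S) : ℤ) : ℂ) =
          (K : ℂ) ^ E * ((N : ℂ) * (c h : ℂ)) - (K : ℂ) ^ E * (S : ℂ) := by
        push_cast; ring
      rw [h1, hinv h, ← Finset.add_sum_erase _ _ (Finset.mem_univ (1 : AddChar H ℂ))]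
      have hone : (∑ k, (c k : ℂ) * (1 : AddChar H ℂ) k) * (1 : AddChar H ℂ) (-h) = (S : ℂ) := by
        simp [hSdef]
      rw [hone, mul_add, add_sub_cancel_left, Finset.mul_sum]
      push_cast
      rw [Finset.mul_sum]
      refine Finset.sum_congr rfl fun ψ hψ' => ?_
      have := hηe ψ (Finset.ne_of_mem_erase hψ')
      calc (K : ℂ) ^ E * ((∑ k, (c k : ℂ) * ψ k) * ψ (-h))
          = ((K : ℂ) ^ E * ∑ k, (c k : ℂ) * ψ k) * ψ (-h) := by ring
        _ = _ := by rw [this]; ring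
    have hdv := dvd_of_eq_mul_integral (by positivity) hint heq
    have hKodd : Odd ((K : ℤ) ^ E) := by
      apply Odd.pow; exact_mod_cast hK
    have hcop : IsCoprime ((2 : ℤ) ^ m) ((K : ℤ) ^ E) := by
      apply IsCoprime.pow_left
      rcases hKodd with ⟨k, hk⟩
      exact ⟨-k, 1, by rw [hk]; ring⟩
    exact hcop.dvd_of_dvd_mul_left hdv
  have hNodd : Odd N := by rw [hNdef]; exact_mod_cast hH
  have hNpos : 0 < N := by
    rw [hNdef]; exact_mod_cast Fintype.card_pos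
  exact arith_final hNodd hNpos hp1 hpo c hc hSdef hNdef hsum hdvd

end P043
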