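import Vale.Agent.Lib.P043.Hit2

open scoped BigOperators
open Classical

namespace P043

section ops
variable {G : Type*} [AddCommGroup G]

lemma sums_bounds (D : List G) (g : G → ℤ) (hg : ∀ x, 0 ≤ g x ∧ g x ≤ 1) (x : G) :
    0 ≤ sums D g x ∧ sums D g x ≤ 2 ^ D.length := by
  induction D generalizing x with
  | nil => simpa [sums] using hg x
  | cons v L ih =>
    have h1 := ih (x + v)
    have h2 := ih x
    simp only [sums, List.length_cons, pow_succ]
    constructor <;> linarith [h1.1, h1.2, h2.1, h2.2]

lemma sums_const (D : List G) (C : ℤ) (x : G) : sums D (fun _ => C) x = 2 ^ D.length * C := by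
  induction D generalizing x with
  | nil => simp [sums]
  | cons v L ih =>
    simp only [sums, List.length_cons, pow_succ, ih]
    ring

lemma sums_sum {ι : Type*} (s : Finset ι) (w : ι → G) (D : List G) (g : G → ℤ) (x : G) :
    ∑ i ∈ s, sums D g (x - w i) = sums D (fun y => ∑ i ∈ s, g (y - w i)) x := by
  induction D generalizing x with
  | nil => simp [sums]
  | cons v L ih =>
    simp only [sums]
    rw [Finset.sum_add_distrib, ← ih, ← ih]
    congr 1
    apply Finset.sum_congr rfl
    intro i _
    congr 1
    abel

lemma diffs_sums_comm (L D : List G) (g : G → ℤ) :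
    diffs L (sums D g) = sums D (diffs L g) := by
  induction D with
  | nil => rfl
  | cons v D ih =>
    have key : ∀ (L : List G) (a b : G → ℤ), diffs L (fun x => a x + b x) =
        fun x => diffs L a x + diffs L b x := by
      intro L a b
      induction L with
      | nil => rfl
      | cons w L ihL =>
        funext x
        simp only [diffs, ihL]
        ring
    have key2 : ∀ (L : List G) (a : G → ℤ), diffs L (fun x => a (x + v)) =
        fun x => diffs L a (x + v) := by
      intro L a
      induction L with
      | nil => rfl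
      | cons w L ihL =>
        funext x
        simp only [diffs, ihL]
        congr 2
        abel
    have h1 : sums (v :: D) g = fun x => sums D g (x + v) + sums D g x := rfl
    have h2 : sums (v :: D) (diffs L g) = fun x => sums D (diffs L g) (x + v) + sums D (diffs L g) x := rfl
    rw [h1, h2, key, key2, ih]

lemma sums_periodic (D : List G) (g : G → ℤ) (hper : ∀ x, ∀ d ∈ D, g (x + d) = g x) (x : G) :
    sums D g x = 2 ^ D.length * g x := by
  induction D generalizing x with
  | nil => simp [sums]
  | cons v L ih =>
    have hL : ∀ x, ∀ d ∈ L, g (x + d) = g x := fun x d hd => hper x d (List.mem_cons_of_mem _ hd)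
    simp only [sums, List.length_cons, pow_succ, ih hL, hper x v List.mem_cons_self]
    ring

lemma prodOp_sums (D : List G) (g : G → ℤ) (C : ℂ) (x : G) :
    prodOp (D.map (fun d => (d, (-1 : ℂ)))) (fun y => (g y : ℂ) - C) x =
      (sums D g x : ℂ) - 2 ^ D.length * C := by
  induction D generalizing x with
  | nil => simp [prodOp, sums]
  | cons v L ih =>
    simp only [List.map_cons, prodOp, sums, ih, List.length_cons, pow_succ]
    push_cast
    ring

lemma prodOp_diffs (D : List G) (g : G → ℤ) (C : ℂ) (x : G) :
    prodOp (D.map (fun d => (d, (1 : ℂ)))) (fun y => (g y : ℂ) - C) x =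
      (diffs D g x : ℂ) - (if D = [] then C else 0) := by
  induction D generalizing x with
  | nil => simp [prodOp, diffs]
  | cons v L ih =>
    simp only [List.map_cons, prodOp, diffs, ih, List.cons_ne_self, if_false, reduceCtorEq]
    push_cast
    ring

end ops

section red
variable {d K : ℕ} [NeZero K]

/-- Reduction mod `K`. -/
def red (d K : ℕ) : (Fin d → ℤ) →+ (Fin d → ZMod K) where
  toFun x := fun i => (x i : ZMod K)
  map_zero' := by funext i; simp
  map_add' x y := by funext i; simp

lemma red_surj : Function.Surjective (red d K) := by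
  intro h
  refine ⟨fun i => ((h i).val : ℤ), ?_⟩
  funext i
  simp [red]

lemma red_eq {x y : Fin d → ℤ} (h : red d K x = red d K y) : ∃ v : Fin d → ℤ, x = y + K • v := by
  have h1 : ∀ i, ((K : ℤ) ∣ x i - y i) := by
    intro i
    have := congrFun h i
    simp only [red] at this
    change ((x i : ℤ) : ZMod K) = ((y i : ℤ) : ZMod K) at this
    rw [ZMod.intCast_eq_intCast_iff_dvd_sub] at this
    have h2 : (K : ℤ) ∣ -(y i - x i) := (dvd_neg).mpr this
    simpa using h2
  choose v hv using h1
  refine ⟨v, ?_⟩
  funext i
  have h2 : (K • v) i = (K : ℤ) * v i := by simp [Pi.smul_apply]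
  have h3 := hv i
  rw [Pi.add_apply, h2]
  linarith

lemma descend (c : (Fin d → ℤ) → ℤ) (hper : ∀ x v : Fin d → ℤ, c (x + K • v) = c x) :
    ∃ cb : (Fin d → ZMod K) → ℤ, ∀ x, cb (red d K x) = c x := by
  refine ⟨fun h => c (Function.surjInv red_surj h), ?_⟩
  intro x
  obtain ⟨v, hv⟩ := red_eq (Function.surjInv_eq (red_surj (d := d) (K := K)) (red d K x))
  simp only [hv, hper]

lemma diffs_red (L : List (Fin d → ℤ)) (c : (Fin d → ℤ) → ℤ) (cb : (Fin d → ZMod K) → ℤ)
    (h : ∀ x, cb (red d K x) = c x) (x : Fin d → ℤ) :
    diffs (L.map (red d K)) cb (red d K x) = diffs L c x := by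
  induction L generalizing x with
  | nil => simpa [diffs] using h x
  | cons v L ih =>
    simp only [List.map_cons, diffs]
    rw [← map_add, ih, ih]

end red

end P043
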